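import Vale.Agent.Lib.P088.MaxPr

/-!
# P088: the exponential barrier
-/

open scoped ContDiff ComplexConjugate Topology
open MeasureTheory

namespace Vale.Agent.Lib.P088

variable {n : ℕ}

/-- squared distance to `x0`, in coordinates -/
def sqd (x0 x : Eu n) : ℝ := ∑ l, (x l - x0 l) * (x l - x0 l)

lemma sqd_eq_dist_sq (x0 x : Eu n) : sqd x0 x = dist x x0 ^ 2 := by
  rw [EuclideanSpace.dist_eq, Real.sq_sqrt (Finset.sum_nonneg fun i _ => sq_nonneg _)]
  simp only [sqd, Real.dist_eq, sq_abs]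
  exact Finset.sum_congr rfl fun i _ => by ring

lemma contDiff_coord_sub (x0 : Eu n) (l : Fin n) : ContDiff ℝ ∞ fun x : Eu n => x l - x0 l := by
  fun_prop

lemma contDiff_sqd (x0 : Eu n) : ContDiff ℝ ∞ (sqd x0) := by
  unfold sqd
  exact ContDiff.sum fun l _ => (contDiff_coord_sub x0 l).mul (contDiff_coord_sub x0 l)

lemma pd_coord_sub (x0 : Eu n) (l k : Fin n) (x : Eu n) :
    pd k (fun y : Eu n => y l - x0 l) x = if l = k then 1 else 0 := by
  have h1 : DifferentiableAt ℝ (fun y : Eu n => y l) x := by fun_prop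
  rw [pd_sub h1 (differentiableAt_const _), pd_coord, pd_const, sub_zero]

lemma pd_sqd (x0 : Eu n) (k : Fin n) (x : Eu n) : pd k (sqd x0) x = 2 * (x k - x0 k) := by
  have hd : ∀ l, DifferentiableAt ℝ (fun y : Eu n => y l - x0 l) x := fun l =>
    ((contDiff_coord_sub x0 l).differentiable (by simp)) x
  unfold sqd
  rw [pd_sum _ (fun l _ => (hd l).fun_mul (hd l))]
  have : ∀ l ∈ Finset.univ, pd k (fun y : Eu n => (y l - x0 l) * (y l - x0 l)) x =
      if l = k then 2 * (x l - x0 l) else 0 := by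
    intro l _
    rw [pd_mul (hd l) (hd l), pd_coord_sub]
    split_ifs <;> ring
  rw [Finset.sum_congr rfl this]
  simp

/-- the Gaussian `exp (-α |x - x0|²)` -/
noncomputable def gau (α : ℝ) (x0 x : Eu n) : ℝ := Real.exp (-α * sqd x0 x)

lemma contDiff_gau (α : ℝ) (x0 : Eu n) : ContDiff ℝ ∞ (gau α x0) := by
  unfold gau
  exact (contDiff_const.mul (contDiff_sqd x0)).exp

lemma gau_pos (α : ℝ) (x0 x : Eu n) : 0 < gau α x0 x := Real.exp_pos _

lemma pd_gau (α : ℝ) (x0 : Eu n) (k : Fin n) (x : Eu n) :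
    pd k (gau α x0) x = -2 * α * (x k - x0 k) * gau α x0 x := by
  have hs : DifferentiableAt ℝ (sqd x0) x := ((contDiff_sqd x0).differentiable (by simp)) x
  have hΦ : HasDerivAt (fun t : ℝ => Real.exp (-α * t)) (Real.exp (-α * sqd x0 x) * (-α * 1))
      (sqd x0 x) := ((hasDerivAt_id _).const_mul (-α)).exp
  have h := pd_comp_real (Φ := fun t : ℝ => Real.exp (-α * t)) hΦ.differentiableAt hs k
  unfold gau
  rw [h, hΦ.deriv, pd_sqd]
  ring

/-- the vector field `γ (x - x0)` -/
def yfield (γ : Eu n → Matrix (Fin n) (Fin n) ℝ) (x0 : Eu n) (k : Fin n) (x : Eu n) : ℝ :=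
  ∑ l, γ x k l * (x l - x0 l)

lemma contDiff_yfield {γ : Eu n → Matrix (Fin n) (Fin n) ℝ} (hγ : IsSmoothMetric γ) (x0 : Eu n)
    (k : Fin n) : ContDiff ℝ ∞ (yfield γ x0 k) := by
  unfold yfield
  exact ContDiff.sum fun l _ => (hγ.1 k l).mul (contDiff_coord_sub x0 l)

lemma sum_mul_yfield (γ : Eu n → Matrix (Fin n) (Fin n) ℝ) (x0 x : Eu n) :
    ∑ k, (x k - x0 k) * yfield γ x0 k x =
      qf (γ x) (fun l => x l - x0 l) (fun l => x l - x0 l) := by
  simp only [yfield, qf, Finset.mul_sum]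
  refine Finset.sum_congr rfl fun k _ => Finset.sum_congr rfl fun l _ => ?_
  ring

/-- the flux `γ ∇ gau` -/
noncomputable def xfield (γ : Eu n → Matrix (Fin n) (Fin n) ℝ) (α : ℝ) (x0 : Eu n) (k : Fin n)
    (x : Eu n) : ℝ := (-2 * α) * (gau α x0 x * yfield γ x0 k x)

lemma contDiff_xfield {γ : Eu n → Matrix (Fin n) (Fin n) ℝ} (hγ : IsSmoothMetric γ) (α : ℝ)
    (x0 : Eu n) (k : Fin n) : ContDiff ℝ ∞ (xfield γ α x0 k) := by
  unfold xfield
  exact contDiff_const.mul ((contDiff_gau α x0).mul (contDiff_yfield hγ x0 k))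

lemma pd_xfield {γ : Eu n → Matrix (Fin n) (Fin n) ℝ} (hγ : IsSmoothMetric γ) (α : ℝ)
    (x0 : Eu n) (k : Fin n) (x : Eu n) :
    pd k (xfield γ α x0 k) x = 2 * α * gau α x0 x *
      (2 * α * ((x k - x0 k) * yfield γ x0 k x) - pd k (yfield γ x0 k) x) := by
  have h1 : DifferentiableAt ℝ (gau α x0) x := ((contDiff_gau α x0).differentiable (by simp)) x
  have h2 : DifferentiableAt ℝ (yfield γ x0 k) x :=
    ((contDiff_yfield hγ x0 k).differentiable (by simp)) x
  unfold xfield
  rw [pd_mul (differentiableAt_const _) (h1.fun_mul h2), pd_const, pd_mul h1 h2, pd_gau]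
  ring

lemma qf_grad_gau (γ : Eu n → Matrix (Fin n) (Fin n) ℝ) (α c : ℝ) (x0 x : Eu n)
    (a : Fin n → ℝ) :
    qf (γ x) a (grad (fun y => gau α x0 y - c) x) = ∑ k, xfield γ α x0 k x * a k := by
  have h1 : DifferentiableAt ℝ (gau α x0) x := ((contDiff_gau α x0).differentiable (by simp)) x
  have hg : grad (fun y => gau α x0 y - c) x = fun l => -2 * α * (x l - x0 l) * gau α x0 x := by
    funext l
    simp only [grad]
    rw [pd_sub h1 (differentiableAt_const _), pd_const, pd_gau, sub_zero]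
  rw [hg]
  simp only [qf, xfield, yfield, Finset.mul_sum, Finset.sum_mul]
  refine Finset.sum_congr rfl fun k _ => Finset.sum_congr rfl fun l _ => ?_
  ring

lemma continuous_pd_of_contDiff {f : Eu n → ℝ} (h : ContDiff ℝ ∞ f) (k : Fin n) :
    Continuous (pd k f) :=
  (h.continuous_fderiv (by simp)).clm_apply continuous_const

lemma exists_barrier {γ : Eu n → Matrix (Fin n) (Fin n) ℝ} (hγ : IsSmoothMetric γ) (x0 : Eu n)
    {ρ₁ ρ₂ : ℝ} (h1 : 0 < ρ₁) (h12 : ρ₁ < ρ₂) :
    ∃ h : Eu n → ℝ, ContDiff ℝ ∞ h ∧ (∀ x, h x ≤ 1) ∧ (∀ x, dist x x0 < ρ₂ → 0 < h x) ∧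
      (∀ x, ρ₂ ≤ dist x x0 → h x ≤ 0) ∧
      ∀ (Ω K : Set (Eu n)) (ζ : Eu n → ℝ), IsOpen Ω → Bornology.IsBounded Ω → IsCompact K →
        K ⊆ Ω → (∀ x ∈ K, ρ₁ ≤ dist x x0 ∧ dist x x0 ≤ ρ₂) → SmoothUpTo Ω ζ →
        (∀ x ∈ Ω, x ∉ K → ζ x = 0) → (∀ x ∈ Ω, 0 ≤ ζ x) →
        ∫ x in Ω, qf (γ x) (grad ζ x) (grad h x) ≤ 0 := by
  classical
  set Kann : Set (Eu n) := {x | ρ₁ ≤ dist x x0 ∧ dist x x0 ≤ ρ₂} with hKann
  have hKc : IsCompact Kann := by
    have hcl : IsClosed Kann :=
      (isClosed_le continuous_const (continuous_id.dist continuous_const)).inter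
        (isClosed_le (continuous_id.dist continuous_const) continuous_const)
    refine Metric.isCompact_of_isClosed_isBounded hcl ?_
    exact (Metric.isBounded_closedBall (x := x0) (r := ρ₂)).subset fun x hx => hx.2
  set q : Eu n → ℝ := fun x => qf (γ x) (fun l => x l - x0 l) (fun l => x l - x0 l) with hq
  have hqc : Continuous q := by
    have := continuousOn_qf (s := Set.univ) (γ := γ) (hγ.continuousOn _)
      (a := fun x l => x l - x0 l) (b := fun x l => x l - x0 l)
      (fun k => (contDiff_coord_sub x0 k).continuous.continuousOn)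
      (fun k => (contDiff_coord_sub x0 k).continuous.continuousOn)
    exact continuousOn_univ.1 this
  have hqpos : ∀ x ∈ Kann, 0 < q x := by
    intro x hx
    apply qf_pos (hγ.2 x)
    intro h0
    have hs : sqd x0 x = 0 := by
      simp only [sqd]
      refine Finset.sum_eq_zero fun l _ => ?_
      have := congrFun h0 l
      simp only [Pi.zero_apply] at this
      rw [this, zero_mul]
    rw [sqd_eq_dist_sq] at hs
    have hd : dist x x0 = 0 := by simpa using hs
    have := hx.1
    linarith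
  obtain ⟨lam, hlam, hlamle⟩ := hKc.exists_forall_le' hqc.continuousOn hqpos
  set dv : Eu n → ℝ := fun x => ∑ k, pd k (yfield γ x0 k) x with hdv
  have hdvc : Continuous dv :=
    continuous_finsetSum _ fun k _ => continuous_pd_of_contDiff (contDiff_yfield hγ x0 k) k
  obtain ⟨C, hC⟩ := hKc.exists_bound_of_continuousOn hdvc.continuousOn
  set α : ℝ := (|C| + 1) / (2 * lam) with hα
  have hαpos : 0 < α := by positivity
  have hαlam : 2 * α * lam = |C| + 1 := by
    rw [hα]; field_simp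
  refine ⟨fun y => gau α x0 y - Real.exp (-α * ρ₂ ^ 2), ?_, ?_, ?_, ?_, ?_⟩
  · exact (contDiff_gau α x0).sub contDiff_const
  · intro x
    have h2 : gau α x0 x ≤ 1 := by
      unfold gau
      rw [Real.exp_le_one_iff, sqd_eq_dist_sq]
      have := sq_nonneg (dist x x0)
      nlinarith
    have h3 := Real.exp_pos (-α * ρ₂ ^ 2)
    linarith
  · intro x hx
    have h2 : dist x x0 ^ 2 < ρ₂ ^ 2 := pow_lt_pow_left₀ hx dist_nonneg (by norm_num)
    have h3 : Real.exp (-α * ρ₂ ^ 2) < gau α x0 x := by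
      unfold gau
      rw [Real.exp_lt_exp, sqd_eq_dist_sq]
      nlinarith
    linarith
  · intro x hx
    have h2 : ρ₂ ^ 2 ≤ dist x x0 ^ 2 := pow_le_pow_left₀ (by linarith) hx 2
    have h3 : gau α x0 x ≤ Real.exp (-α * ρ₂ ^ 2) := by
      unfold gau
      rw [Real.exp_le_exp, sqd_eq_dist_sq]
      nlinarith
    linarith
  · intro Ω K ζ ho hb hK hKΩ hKann hζ hζ0 hζnn
    have hζ1 : ContDiffOn ℝ 1 ζ Ω := by
      obtain ⟨O, _, hsub, hO⟩ := hζ
      exact (hO.mono (subset_closure.trans hsub)).of_le (by simp)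
    have hX : ∀ k, ContDiff ℝ ∞ (xfield γ α x0 k) := fun k => contDiff_xfield hγ α x0 k
    have e1 : ∫ x in Ω, qf (γ x) (grad ζ x)
        (grad (fun y => gau α x0 y - Real.exp (-α * ρ₂ ^ 2)) x) =
        ∑ k, ∫ x in Ω, xfield γ α x0 k x * pd k ζ x := by
      rw [← integral_finsetSum]
      · refine setIntegral_congr_fun ho.measurableSet fun x _ => ?_
        exact qf_grad_gau γ α _ x0 x (grad ζ x)
      · intro k _
        exact integrableOn_of_continuousOn_closure hb
          ((hX k).continuous.continuousOn.mul (hζ.continuousOn_pd k))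
    have e2 : ∀ k, ∫ x in Ω, xfield γ α x0 k x * pd k ζ x =
        - ∫ x in Ω, pd k (xfield γ α x0 k) x * ζ x := fun k =>
      ibp_compact ho hK hKΩ ((hX k).of_le (by simp)) hζ1 hζ0 k
    have e3 : ∑ k, ∫ x in Ω, pd k (xfield γ α x0 k) x * ζ x =
        ∫ x in Ω, (∑ k, pd k (xfield γ α x0 k) x) * ζ x := by
      rw [← integral_finsetSum]
      · refine setIntegral_congr_fun ho.measurableSet fun x _ => ?_
        simp only [Finset.sum_mul]
      · intro k _
        exact integrableOn_of_continuousOn_closure hb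
          ((continuous_pd_of_contDiff (hX k) k).continuousOn.mul hζ.continuousOn)
    have e4 : 0 ≤ ∫ x in Ω, (∑ k, pd k (xfield γ α x0 k) x) * ζ x := by
      refine setIntegral_nonneg ho.measurableSet fun x hx => ?_
      by_cases hxK : x ∈ K
      · refine mul_nonneg ?_ (hζnn x hx)
        have hsum : ∑ k, pd k (xfield γ α x0 k) x =
            2 * α * gau α x0 x * (2 * α * q x - dv x) := by
          simp only [pd_xfield hγ, hq, hdv, ← sum_mul_yfield, Finset.mul_sum,
            ← Finset.sum_sub_distrib, mul_sub]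
        rw [hsum]
        have hxa : x ∈ Kann := hKann x hxK
        have h5 : lam ≤ q x := hlamle x hxa
        have h6 : dv x ≤ |C| := by
          have := hC x hxa
          rw [Real.norm_eq_abs] at this
          exact (le_abs_self _).trans (this.trans (le_abs_self _))
        have h7 : 0 ≤ 2 * α * q x - dv x := by nlinarith
        have := gau_pos α x0 x
        positivity
      · rw [hζ0 x hx hxK, mul_zero]
    rw [e1, Finset.sum_congr rfl fun k _ => e2 k, Finset.sum_neg_distrib, e3]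
    linarith

end Vale.Agent.Lib.P088
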