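import Vale.Agent.Lib.P088.Defs

/-!
# P088: calculus of coordinate derivatives and of functions smooth up to the boundary
-/

open scoped ContDiff ComplexConjugate Topology
open MeasureTheory

namespace Vale.Agent.Lib.P088

variable {n : ℕ}

section pdrules

variable {F : Type*} [NormedAddCommGroup F] [NormedSpace ℝ F]

lemma pd_of_hasFDerivAt {f : Eu n → F} {f' : Eu n →L[ℝ] F} {x : Eu n} (h : HasFDerivAt f f' x)
    (k : Fin n) : pd k f x = f' (EuclideanSpace.single k (1 : ℝ)) := by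
  simp only [pd, h.fderiv]

lemma pd_congr_of_eventuallyEq {f g : Eu n → F} {x : Eu n} (h : f =ᶠ[𝓝 x] g) (k : Fin n) :
    pd k f x = pd k g x := by
  simp only [pd, h.fderiv_eq]

lemma pd_const (c : F) (k : Fin n) (x : Eu n) : pd k (fun _ => c) x = 0 := by
  simp [pd]

lemma pd_add {f g : Eu n → F} {x : Eu n} (hf : DifferentiableAt ℝ f x)
    (hg : DifferentiableAt ℝ g x) (k : Fin n) :
    pd k (fun y => f y + g y) x = pd k f x + pd k g x := by
  simp only [pd, fderiv_fun_add hf hg, add_apply]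

lemma pd_sub {f g : Eu n → F} {x : Eu n} (hf : DifferentiableAt ℝ f x)
    (hg : DifferentiableAt ℝ g x) (k : Fin n) :
    pd k (fun y => f y - g y) x = pd k f x - pd k g x := by
  simp only [pd, fderiv_fun_sub hf hg, sub_apply]

lemma pd_neg {f : Eu n → F} {x : Eu n} (k : Fin n) :
    pd k (fun y => - f y) x = - pd k f x := by
  simp only [pd, fderiv_fun_neg, neg_apply]

lemma pd_sum {ι : Type*} (s : Finset ι) {f : ι → Eu n → F} {x : Eu n}
    (hf : ∀ i ∈ s, DifferentiableAt ℝ (f i) x) (k : Fin n) :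
    pd k (fun y => ∑ i ∈ s, f i y) x = ∑ i ∈ s, pd k (f i) x := by
  simp only [pd, fderiv_fun_sum hf, sum_apply]

lemma pd_mul {𝔸 : Type*} [NormedCommRing 𝔸] [NormedAlgebra ℝ 𝔸] {f g : Eu n → 𝔸} {x : Eu n}
    (hf : DifferentiableAt ℝ f x) (hg : DifferentiableAt ℝ g x) (k : Fin n) :
    pd k (fun y => f y * g y) x = pd k f x * g x + f x * pd k g x := by
  simp only [pd, fderiv_fun_mul hf hg, add_apply,
    smul_apply, smul_eq_mul]
  ring

lemma pd_comp_real {f : Eu n → ℝ} {x : Eu n} {Φ : ℝ → ℝ} (hΦ : DifferentiableAt ℝ Φ (f x))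
    (hf : DifferentiableAt ℝ f x) (k : Fin n) :
    pd k (fun y => Φ (f y)) x = deriv Φ (f x) * pd k f x := by
  have h : HasFDerivAt (fun y => Φ (f y)) (deriv Φ (f x) • fderiv ℝ f x) x :=
    hΦ.hasDerivAt.comp_hasFDerivAt x hf.hasFDerivAt
  rw [pd_of_hasFDerivAt h k]
  simp [pd]

lemma pd_clm {G : Type*} [NormedAddCommGroup G] [NormedSpace ℝ G] (L : F →L[ℝ] G)
    {f : Eu n → F} {x : Eu n} (hf : DifferentiableAt ℝ f x) (k : Fin n) :
    pd k (fun y => L (f y)) x = L (pd k f x) := by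
  have h := L.hasFDerivAt.comp x hf.hasFDerivAt
  have h' : HasFDerivAt (fun y => L (f y)) (L.comp (fderiv ℝ f x)) x := h
  rw [pd_of_hasFDerivAt h' k]
  simp [pd]

lemma pd_re {f : Eu n → ℂ} {x : Eu n} (hf : DifferentiableAt ℝ f x) (k : Fin n) :
    pd k (fun y => (f y).re) x = (pd k f x).re :=
  pd_clm Complex.reCLM hf k

lemma pd_im {f : Eu n → ℂ} {x : Eu n} (hf : DifferentiableAt ℝ f x) (k : Fin n) :
    pd k (fun y => (f y).im) x = (pd k f x).im :=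
  pd_clm Complex.imCLM hf k

lemma pd_conj {f : Eu n → ℂ} {x : Eu n} (hf : DifferentiableAt ℝ f x) (k : Fin n) :
    pd k (fun y => conj (f y)) x = conj (pd k f x) :=
  pd_clm (Complex.conjCLE : ℂ →L[ℝ] ℂ) hf k

lemma pd_ofReal {f : Eu n → ℝ} {x : Eu n} (hf : DifferentiableAt ℝ f x) (k : Fin n) :
    pd k (fun y => ((f y : ℝ) : ℂ)) x = ((pd k f x : ℝ) : ℂ) :=
  pd_clm Complex.ofRealCLM hf k

lemma pd_coord (l k : Fin n) (x : Eu n) :
    pd k (fun y : Eu n => y l) x = if l = k then 1 else 0 := by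
  have h : HasFDerivAt (fun y : Eu n => y l) (EuclideanSpace.proj l : Eu n →L[ℝ] ℝ) x :=
    (EuclideanSpace.proj l : Eu n →L[ℝ] ℝ).hasFDerivAt
  rw [pd_of_hasFDerivAt h k]
  simp

/-- A continuous linear map on `ℝⁿ` vanishing on the standard basis is zero. -/
lemma clm_eq_zero_of_single {L : Eu n →L[ℝ] F}
    (h : ∀ k, L (EuclideanSpace.single k (1 : ℝ)) = 0) : L = 0 := by
  ext y
  have hy : y = ∑ k, y k • EuclideanSpace.single k (1 : ℝ) := by
    ext i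
    simp [Pi.single_apply]
  rw [hy, map_sum]
  simp [h]

lemma fderiv_eq_zero_of_pd {f : Eu n → F} {x : Eu n} (h : ∀ k, pd k f x = 0) :
    fderiv ℝ f x = 0 :=
  clm_eq_zero_of_single h

end pdrules

section smooth

variable {F : Type*} [NormedAddCommGroup F] [NormedSpace ℝ F] {Ω : Set (Eu n)}

lemma SmoothUpTo.of_contDiff {f : Eu n → F} (h : ContDiff ℝ ∞ f) : SmoothUpTo Ω f :=
  ⟨Set.univ, isOpen_univ, Set.subset_univ _, h.contDiffOn⟩

lemma SmoothUpTo.const (c : F) : SmoothUpTo Ω (fun _ : Eu n => c) :=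
  SmoothUpTo.of_contDiff contDiff_const

lemma SmoothUpTo.contDiffAt {f : Eu n → F} (h : SmoothUpTo Ω f) {x : Eu n}
    (hx : x ∈ closure Ω) : ContDiffAt ℝ ∞ f x := by
  obtain ⟨O, hO, hsub, hf⟩ := h
  exact hf.contDiffAt (hO.mem_nhds (hsub hx))

lemma SmoothUpTo.differentiableAt {f : Eu n → F} (h : SmoothUpTo Ω f) {x : Eu n}
    (hx : x ∈ closure Ω) : DifferentiableAt ℝ f x :=
  (h.contDiffAt hx).differentiableAt (by simp)

lemma SmoothUpTo.differentiableAt' {f : Eu n → F} (h : SmoothUpTo Ω f) {x : Eu n}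
    (hx : x ∈ Ω) : DifferentiableAt ℝ f x :=
  h.differentiableAt (subset_closure hx)

lemma SmoothUpTo.continuousOn {f : Eu n → F} (h : SmoothUpTo Ω f) :
    ContinuousOn f (closure Ω) := by
  obtain ⟨O, hO, hsub, hf⟩ := h
  exact hf.continuousOn.mono hsub

lemma SmoothUpTo.continuousOn_pd {f : Eu n → F} (h : SmoothUpTo Ω f) (k : Fin n) :
    ContinuousOn (pd k f) (closure Ω) := by
  obtain ⟨O, hO, hsub, hf⟩ := h
  have h1 : ContinuousOn (fderiv ℝ f) O := hf.continuousOn_fderiv_of_isOpen hO (by simp)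
  have h2 : ContinuousOn (fun x => fderiv ℝ f x (EuclideanSpace.single k (1 : ℝ))) O :=
    h1.clm_apply continuousOn_const
  exact h2.mono hsub

lemma SmoothUpTo.add {f g : Eu n → F} (hf : SmoothUpTo Ω f) (hg : SmoothUpTo Ω g) :
    SmoothUpTo Ω (fun y => f y + g y) := by
  obtain ⟨O₁, hO₁, hs₁, h₁⟩ := hf
  obtain ⟨O₂, hO₂, hs₂, h₂⟩ := hg
  exact ⟨O₁ ∩ O₂, hO₁.inter hO₂, Set.subset_inter hs₁ hs₂,
    (h₁.mono Set.inter_subset_left).add (h₂.mono Set.inter_subset_right)⟩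

lemma SmoothUpTo.sub {f g : Eu n → F} (hf : SmoothUpTo Ω f) (hg : SmoothUpTo Ω g) :
    SmoothUpTo Ω (fun y => f y - g y) := by
  obtain ⟨O₁, hO₁, hs₁, h₁⟩ := hf
  obtain ⟨O₂, hO₂, hs₂, h₂⟩ := hg
  exact ⟨O₁ ∩ O₂, hO₁.inter hO₂, Set.subset_inter hs₁ hs₂,
    (h₁.mono Set.inter_subset_left).sub (h₂.mono Set.inter_subset_right)⟩

lemma SmoothUpTo.neg {f : Eu n → F} (hf : SmoothUpTo Ω f) :
    SmoothUpTo Ω (fun y => - f y) := by
  obtain ⟨O₁, hO₁, hs₁, h₁⟩ := hf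
  exact ⟨O₁, hO₁, hs₁, h₁.neg⟩

lemma SmoothUpTo.mul {𝔸 : Type*} [NormedCommRing 𝔸] [NormedAlgebra ℝ 𝔸] {f g : Eu n → 𝔸}
    (hf : SmoothUpTo Ω f) (hg : SmoothUpTo Ω g) :
    SmoothUpTo Ω (fun y => f y * g y) := by
  obtain ⟨O₁, hO₁, hs₁, h₁⟩ := hf
  obtain ⟨O₂, hO₂, hs₂, h₂⟩ := hg
  exact ⟨O₁ ∩ O₂, hO₁.inter hO₂, Set.subset_inter hs₁ hs₂,
    (h₁.mono Set.inter_subset_left).mul (h₂.mono Set.inter_subset_right)⟩

lemma SmoothUpTo.sum {ι : Type*} (s : Finset ι) {f : ι → Eu n → F}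
    (hf : ∀ i ∈ s, SmoothUpTo Ω (f i)) : SmoothUpTo Ω (fun y => ∑ i ∈ s, f i y) := by
  classical
  induction s using Finset.induction_on with
  | empty => simpa using SmoothUpTo.const (0 : F)
  | insert a s ha ih =>
    simp only [Finset.sum_insert ha]
    exact (hf a (Finset.mem_insert_self a s)).add
      (ih fun i hi => hf i (Finset.mem_insert_of_mem hi))

lemma SmoothUpTo.comp_contDiff {G : Type*} [NormedAddCommGroup G] [NormedSpace ℝ G]
    {f : Eu n → F} (hf : SmoothUpTo Ω f) {Φ : F → G} (hΦ : ContDiff ℝ ∞ Φ) :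
    SmoothUpTo Ω (fun y => Φ (f y)) := by
  obtain ⟨O₁, hO₁, hs₁, h₁⟩ := hf
  exact ⟨O₁, hO₁, hs₁, hΦ.comp_contDiffOn h₁⟩

lemma SmoothUpTo.re {f : Eu n → ℂ} (hf : SmoothUpTo Ω f) : SmoothUpTo Ω (fun y => (f y).re) :=
  hf.comp_contDiff Complex.reCLM.contDiff

lemma SmoothUpTo.im {f : Eu n → ℂ} (hf : SmoothUpTo Ω f) : SmoothUpTo Ω (fun y => (f y).im) :=
  hf.comp_contDiff Complex.imCLM.contDiff

lemma SmoothUpTo.conj {f : Eu n → ℂ} (hf : SmoothUpTo Ω f) :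
    SmoothUpTo Ω (fun y => conj (f y)) :=
  hf.comp_contDiff (Complex.conjCLE : ℂ →L[ℝ] ℂ).contDiff

lemma SmoothUpTo.ofReal {f : Eu n → ℝ} (hf : SmoothUpTo Ω f) :
    SmoothUpTo Ω (fun y => ((f y : ℝ) : ℂ)) :=
  hf.comp_contDiff Complex.ofRealCLM.contDiff

/-- Quotient by a function which is positive on the closure. -/
lemma SmoothUpTo.div_pos {f g : Eu n → ℝ} (hf : SmoothUpTo Ω f) (hg : SmoothUpTo Ω g)
    (hpos : ∀ x ∈ closure Ω, 0 < g x) : SmoothUpTo Ω (fun y => f y / g y) := by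
  obtain ⟨O₁, hO₁, hs₁, h₁⟩ := hf
  obtain ⟨O₂, hO₂, hs₂, h₂⟩ := hg
  have hopen : IsOpen (O₂ ∩ g ⁻¹' Set.Ioi 0) :=
    h₂.continuousOn.isOpen_inter_preimage hO₂ isOpen_Ioi
  refine ⟨O₁ ∩ (O₂ ∩ g ⁻¹' Set.Ioi 0), hO₁.inter hopen,
    fun x hx => ⟨hs₁ hx, hs₂ hx, hpos x hx⟩, ?_⟩
  refine (h₁.mono Set.inter_subset_left).div (h₂.mono fun x hx => hx.2.1) ?_
  intro x hx
  exact ne_of_gt hx.2.2

end smooth

section integr

variable {Ω : Set (Eu n)}

lemma isCompact_closure_of_bounded (hb : Bornology.IsBounded Ω) : IsCompact (closure Ω) :=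
  hb.isCompact_closure

lemma integrableOn_of_continuousOn_closure {F : Type*} [NormedAddCommGroup F]
    (hb : Bornology.IsBounded Ω) {f : Eu n → F}
    (hf : ContinuousOn f (closure Ω)) : IntegrableOn f Ω :=
  (hf.integrableOn_compact hb.isCompact_closure).mono_set subset_closure

/-- A continuous nonnegative function on an open set with vanishing integral vanishes. -/
lemma eq_zero_of_setIntegral_eq_zero (ho : IsOpen Ω) {f : Eu n → ℝ} (hc : ContinuousOn f Ω)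
    (hi : IntegrableOn f Ω) (hnn : ∀ x ∈ Ω, 0 ≤ f x) (h0 : ∫ x in Ω, f x = 0) :
    ∀ x ∈ Ω, f x = 0 := by
  have h1 : 0 ≤ᵐ[volume.restrict Ω] f :=
    (ae_restrict_iff' ho.measurableSet).2 (Filter.Eventually.of_forall hnn)
  have h2 : f =ᵐ[volume.restrict Ω] 0 := (setIntegral_eq_zero_iff_of_nonneg_ae h1 hi).1 h0
  have h3 : Set.EqOn f 0 Ω := Measure.eqOn_open_of_ae_eq h2 ho hc continuousOn_const
  exact fun x hx => h3 hx

end integr

end Vale.Agent.Lib.P088
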