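import Vale.Agent.Lib.P088.Limit

/-!
# P088: from the complex Dirichlet form to the real forms
-/

open scoped ContDiff ComplexConjugate Topology
open MeasureTheory Filter

namespace Vale.Agent.Lib.P088

variable {n N : ℕ}

/-- the trivial connection -/
def zeroConn (n N : ℕ) : Eu n → Fin n → Matrix (Fin N) (Fin N) ℂ := fun _ _ => 0

lemma isUnitaryConn_zero : IsUnitaryConn (zeroConn n N) :=
  ⟨fun _ _ _ => by simpa [zeroConn] using contDiff_const, fun _ _ => by simp [zeroConn]⟩

lemma dirDens_self_re (g : Eu n → Matrix (Fin n) (Fin n) ℝ)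
    (A : Eu n → Fin n → Matrix (Fin N) (Fin N) ℂ) (u : Eu n → Fin N → ℂ) (x : Eu n) :
    (dirDens g A u u x).re = Qc (cond g x) (covD A u x) := by
  simp only [dirDens, Qc, Complex.re_sum, Complex.re_ofReal_mul]

lemma continuousOn_dirDens {Ω : Set (Eu n)} {g : Eu n → Matrix (Fin n) (Fin n) ℝ}
    (hg : IsSmoothMetric g) {A : Eu n → Fin n → Matrix (Fin N) (Fin N) ℂ}
    (hA : IsUnitaryConn A) {u w : Eu n → Fin N → ℂ} (hu : ∀ i, SmoothUpTo Ω fun y => u y i)
    (hw : ∀ i, SmoothUpTo Ω fun y => w y i) :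
    ContinuousOn (dirDens g A u w) (closure Ω) := by
  unfold dirDens
  refine continuousOn_finsetSum _ fun k _ => continuousOn_finsetSum _ fun l _ => ?_
  refine ContinuousOn.mul ?_ ?_
  · exact Complex.continuous_ofReal.comp_continuousOn (hg.cond.continuousOn _ k l)
  · refine continuousOn_finsetSum _ fun i _ => ?_
    exact (continuousOn_covD hA hu k i).mul
      (Complex.continuous_conj.comp_continuousOn (continuousOn_covD hA hw l i))

lemma integrableOn_dirDens {Ω : Set (Eu n)} (hb : Bornology.IsBounded Ω)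
    {g : Eu n → Matrix (Fin n) (Fin n) ℝ}
    (hg : IsSmoothMetric g) {A : Eu n → Fin n → Matrix (Fin N) (Fin N) ℂ}
    (hA : IsUnitaryConn A) {u w : Eu n → Fin N → ℂ} (hu : ∀ i, SmoothUpTo Ω fun y => u y i)
    (hw : ∀ i, SmoothUpTo Ω fun y => w y i) : IntegrableOn (dirDens g A u w) Ω :=
  integrableOn_of_continuousOn_closure hb (continuousOn_dirDens hg hA hu hw)

lemma covD_sub {A : Eu n → Fin n → Matrix (Fin N) (Fin N) ℂ} {u w : Eu n → Fin N → ℂ} {x : Eu n}
    (hu : ∀ i, DifferentiableAt ℝ (fun y => u y i) x)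
    (hw : ∀ i, DifferentiableAt ℝ (fun y => w y i) x) (k : Fin n) (i : Fin N) :
    covD A (fun y i => u y i - w y i) x k i = covD A u x k i - covD A w x k i := by
  simp only [covD]
  rw [pd_sub (hu i) (hw i)]
  simp only [mul_sub, Finset.sum_sub_distrib]
  ring

lemma dirDens_sub_right {g : Eu n → Matrix (Fin n) (Fin n) ℝ}
    {A : Eu n → Fin n → Matrix (Fin N) (Fin N) ℂ} {u w w' : Eu n → Fin N → ℂ} {x : Eu n}
    (hw : ∀ i, DifferentiableAt ℝ (fun y => w y i) x)
    (hw' : ∀ i, DifferentiableAt ℝ (fun y => w' y i) x) :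
    dirDens g A u (fun y i => w y i - w' y i) x = dirDens g A u w x - dirDens g A u w' x := by
  simp only [dirDens, covD_sub hw hw', map_sub, mul_sub, Finset.sum_sub_distrib]

lemma dirForm_eq_of_same_bdry {Ω : Set (Eu n)} (ho : IsOpen Ω) (hb : Bornology.IsBounded Ω)
    {g : Eu n → Matrix (Fin n) (Fin n) ℝ} (hg : IsSmoothMetric g)
    {A : Eu n → Fin n → Matrix (Fin N) (Fin N) ℂ} (hA : IsUnitaryConn A)
    {f u w w' : Eu n → Fin N → ℂ} (hu : IsSol Ω g A f u)
    (hw : ∀ i, SmoothUpTo Ω fun y => w y i) (hw' : ∀ i, SmoothUpTo Ω fun y => w' y i)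
    (hbd : ∀ x ∈ frontier Ω, w x = w' x) : dirForm Ω g A u w = dirForm Ω g A u w' := by
  have h0 := hu.2.2 (fun y i => w y i - w' y i) (fun i => (hw i).sub (hw' i)) (by
    intro x hx
    funext i
    simp [hbd x hx])
  unfold dirForm at h0 ⊢
  have hpt : ∀ x ∈ Ω, dirDens g A u (fun y i => w y i - w' y i) x =
      dirDens g A u w x - dirDens g A u w' x := fun x hx =>
    dirDens_sub_right (fun i => (hw i).differentiableAt' hx)
      (fun i => (hw' i).differentiableAt' hx)
  rw [setIntegral_congr_fun ho.measurableSet hpt,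
    integral_sub (integrableOn_dirDens hb hg hA hu.1 hw)
      (integrableOn_dirDens hb hg hA hu.1 hw')] at h0
  exact sub_eq_zero.1 h0

lemma dirForm_self_re {Ω : Set (Eu n)} (hb : Bornology.IsBounded Ω)
    {g : Eu n → Matrix (Fin n) (Fin n) ℝ} (hg : IsSmoothMetric g)
    {A : Eu n → Fin n → Matrix (Fin N) (Fin N) ℂ} (hA : IsUnitaryConn A)
    {u : Eu n → Fin N → ℂ} (hu : ∀ i, SmoothUpTo Ω fun y => u y i) :
    (dirForm Ω g A u u).re = ∫ x in Ω, Qc (cond g x) (covD A u x) := by
  have h := Complex.reCLM.integral_comp_comm (integrableOn_dirDens hb hg hA hu hu)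
  simp only [Complex.reCLM_apply] at h
  unfold dirForm
  rw [← h]
  exact integral_congr_ae (Eventually.of_forall fun x => dirDens_self_re g A u x)

/-- the section `w e_j` -/
noncomputable def sect (j : Fin N) (w : Eu n → ℝ) : Eu n → Fin N → ℂ :=
  fun y i => if i = j then ((w y : ℝ) : ℂ) else 0

lemma smoothUpTo_sect {Ω : Set (Eu n)} (j : Fin N) {w : Eu n → ℝ} (hw : SmoothUpTo Ω w)
    (i : Fin N) : SmoothUpTo Ω fun y => sect j w y i := by
  simp only [sect]
  split_ifs
  · exact hw.ofReal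
  · exact SmoothUpTo.const 0

lemma covD_zero_sect (j : Fin N) {w : Eu n → ℝ} {x : Eu n} (hw : DifferentiableAt ℝ w x)
    (k : Fin n) (i : Fin N) :
    covD (zeroConn n N) (sect j w) x k i = if i = j then ((pd k w x : ℝ) : ℂ) else 0 := by
  simp only [covD, zeroConn, sect, Matrix.zero_apply, zero_mul, Finset.sum_const_zero, add_zero]
  split_ifs
  · exact pd_ofReal hw k
  · exact pd_const _ _ _

lemma dirDens_zero_sect_re (g : Eu n → Matrix (Fin n) (Fin n) ℝ) (j : Fin N)
    {V : Eu n → Fin N → ℂ} {w : Eu n → ℝ} {x : Eu n}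
    (hV : DifferentiableAt ℝ (fun y => V y j) x) (hw : DifferentiableAt ℝ w x) :
    (dirDens g (zeroConn n N) V (sect j w) x).re =
      qf (cond g x) (grad (fun y => (V y j).re) x) (grad w x) := by
  simp only [dirDens, qf, Complex.re_sum, Complex.re_ofReal_mul, covD_zero_sect j hw]
  refine Finset.sum_congr rfl fun k _ => Finset.sum_congr rfl fun l _ => ?_
  have h1 : ∑ i, (covD (zeroConn n N) V x k i *
      conj (if i = j then ((pd l w x : ℝ) : ℂ) else 0)).re =
      (covD (zeroConn n N) V x k j * ((pd l w x : ℝ) : ℂ)).re := by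
    rw [Finset.sum_eq_single j]
    · simp
    · intro i _ hij
      simp [hij]
    · simp
  rw [h1]
  simp only [covD, zeroConn, Matrix.zero_apply, zero_mul, Finset.sum_const_zero, add_zero, grad,
    pd_re hV, Complex.re_mul_ofReal]
  ring

lemma dirForm_zero_sect_re {Ω : Set (Eu n)} (ho : IsOpen Ω) (hb : Bornology.IsBounded Ω)
    {g : Eu n → Matrix (Fin n) (Fin n) ℝ} (hg : IsSmoothMetric g) (j : Fin N)
    {V : Eu n → Fin N → ℂ} (hV : ∀ i, SmoothUpTo Ω fun y => V y i) {w : Eu n → ℝ}
    (hw : SmoothUpTo Ω w) :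
    (dirForm Ω g (zeroConn n N) V (sect j w)).re =
      ∫ x in Ω, qf (cond g x) (grad (fun y => (V y j).re) x) (grad w x) := by
  have h := Complex.reCLM.integral_comp_comm
    (integrableOn_dirDens hb hg isUnitaryConn_zero hV (smoothUpTo_sect j hw))
  simp only [Complex.reCLM_apply] at h
  unfold dirForm
  rw [← h]
  exact setIntegral_congr_fun ho.measurableSet fun x hx =>
    dirDens_zero_sect_re g j ((hV j).differentiableAt' hx) (hw.differentiableAt' hx)

/-- The real part of the `j`-th component of a solution for the trivial connection is weakly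
harmonic. -/
lemma weakHarm_of_isSol {Ω : Set (Eu n)} (ho : IsOpen Ω) (hb : Bornology.IsBounded Ω)
    {g : Eu n → Matrix (Fin n) (Fin n) ℝ} (hg : IsSmoothMetric g) (j : Fin N)
    {f V : Eu n → Fin N → ℂ} (hV : IsSol Ω g (zeroConn n N) f V) :
    WeakHarm Ω (cond g) (fun y => (V y j).re) := by
  intro w hw hw0
  rw [← dirForm_zero_sect_re ho hb hg j hV.1 hw,
    hV.2.2 (sect j w) (smoothUpTo_sect j hw) (by
      intro x hx
      funext i
      simp [sect, hw0 x hx])]
  simp

end Vale.Agent.Lib.P088
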