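import Mathlib

/-!
# P088: statement-level definitions

Euclidean model of the setting of P088: `M` is the closure of a bounded connected open set
`Ω` of `ℝⁿ`, metrics and connections are given in the global coordinates.
-/

open scoped ContDiff ComplexConjugate
open MeasureTheory

namespace Vale.Agent.Lib.P088

/-- Euclidean space `ℝⁿ`. -/
abbrev Eu (n : ℕ) := EuclideanSpace ℝ (Fin n)

/-- The `k`-th coordinate derivative of `f` at `x`. -/
noncomputable def pd {n : ℕ} {F : Type*} [NormedAddCommGroup F] [NormedSpace ℝ F]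
    (k : Fin n) (f : Eu n → F) (x : Eu n) : F :=
  fderiv ℝ f x (EuclideanSpace.single k (1 : ℝ))

/-- `f` is smooth up to the boundary of `Ω`: it is `C^∞` on an open neighbourhood of the
closure of `Ω`. -/
def SmoothUpTo {n : ℕ} {F : Type*} [NormedAddCommGroup F] [NormedSpace ℝ F]
    (Ω : Set (Eu n)) (f : Eu n → F) : Prop :=
  ∃ O : Set (Eu n), IsOpen O ∧ closure Ω ⊆ O ∧ ContDiffOn ℝ ∞ f O

/-- A smooth Riemannian metric, given by its coordinate matrix `g x = (g_{kl}(x))`. -/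
def IsSmoothMetric {n : ℕ} (g : Eu n → Matrix (Fin n) (Fin n) ℝ) : Prop :=
  (∀ k l, ContDiff ℝ ∞ fun x => g x k l) ∧ ∀ x, (g x).PosDef

/-- A smooth unitary connection `d + A` on the trivial bundle with fibre `ℂ^N`:
`A x k` is the coefficient of `dx_k`, a skew-Hermitian matrix. -/
def IsUnitaryConn {n N : ℕ} (A : Eu n → Fin n → Matrix (Fin N) (Fin N) ℂ) : Prop :=
  (∀ k i j, ContDiff ℝ ∞ fun x => A x k i j) ∧ ∀ x k, (A x k).conjTranspose = -A x k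

/-- The matrix `|g|^{1/2} g^{-1}` (inverse metric times the Riemannian volume density). -/
noncomputable def cond {n : ℕ} (g : Eu n → Matrix (Fin n) (Fin n) ℝ) (x : Eu n) :
    Matrix (Fin n) (Fin n) ℝ :=
  Real.sqrt (g x).det • (g x)⁻¹

/-- The `i`-th component of the coefficient of `dx_k` in `d_A u = du + A u`. -/
noncomputable def covD {n N : ℕ} (A : Eu n → Fin n → Matrix (Fin N) (Fin N) ℂ)
    (u : Eu n → Fin N → ℂ) (x : Eu n) (k : Fin n) (i : Fin N) : ℂ :=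
  pd k (fun y => u y i) x + ∑ j, A x k i j * u x j

/-- The density `⟨d_A u, d_A w⟩_g dV_g / dx`. -/
noncomputable def dirDens {n N : ℕ} (g : Eu n → Matrix (Fin n) (Fin n) ℝ)
    (A : Eu n → Fin n → Matrix (Fin N) (Fin N) ℂ) (u w : Eu n → Fin N → ℂ) (x : Eu n) : ℂ :=
  ∑ k, ∑ l, ((cond g x k l : ℝ) : ℂ) * ∑ i, covD A u x k i * conj (covD A w x l i)

/-- The Dirichlet form `∫_M ⟨d_A u, d_A w⟩_g dV_g`. -/
noncomputable def dirForm {n N : ℕ} (Ω : Set (Eu n)) (g : Eu n → Matrix (Fin n) (Fin n) ℝ)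
    (A : Eu n → Fin n → Matrix (Fin N) (Fin N) ℂ) (u w : Eu n → Fin N → ℂ) : ℂ :=
  ∫ x in Ω, dirDens g A u w x

/-- `u` is smooth up to the boundary, equals `f` on `∂Ω` and solves `d_A^* d_A u = 0` in `Ω`
(tested against all smooth `w` vanishing on `∂Ω`). -/
def IsSol {n N : ℕ} (Ω : Set (Eu n)) (g : Eu n → Matrix (Fin n) (Fin n) ℝ)
    (A : Eu n → Fin n → Matrix (Fin N) (Fin N) ℂ) (f u : Eu n → Fin N → ℂ) : Prop :=
  (∀ i, SmoothUpTo Ω fun y => u y i) ∧ (∀ x ∈ frontier Ω, u x = f x) ∧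
    ∀ w : Eu n → Fin N → ℂ, (∀ i, SmoothUpTo Ω fun y => w y i) → (∀ x ∈ frontier Ω, w x = 0) →
      dirForm Ω g A u w = 0

/-- Boundary data in `C_c^∞(Γ; ℂ^N)`: restrictions to `∂Ω` of smooth functions whose
restriction has support inside `Γ`. -/
def IsDatum {n N : ℕ} (Ω Γ : Set (Eu n)) (f : Eu n → Fin N → ℂ) : Prop :=
  (∀ i, ContDiff ℝ ∞ fun y => f y i) ∧ closure {x | x ∈ frontier Ω ∧ f x ≠ 0} ⊆ Γ

/-- The two pairs `(g₁, A₁)`, `(g₂, A₂)` have the same data on `Γ`: for all `f, h` in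
`C_c^∞(Γ; ℂ^N)` the Dirichlet problems are solved by `u_f, u_h` and the forms
`∫ ⟨d_A u_f, d_A u_h⟩_g dV_g` agree. -/
def SameData {n N : ℕ} (Ω Γ : Set (Eu n))
    (g₁ : Eu n → Matrix (Fin n) (Fin n) ℝ) (A₁ : Eu n → Fin n → Matrix (Fin N) (Fin N) ℂ)
    (g₂ : Eu n → Matrix (Fin n) (Fin n) ℝ) (A₂ : Eu n → Fin n → Matrix (Fin N) (Fin N) ℂ) : Prop :=
  ∀ f h : Eu n → Fin N → ℂ, IsDatum Ω Γ f → IsDatum Ω Γ h →
    ∃ u₁ w₁ u₂ w₂ : Eu n → Fin N → ℂ,
      IsSol Ω g₁ A₁ f u₁ ∧ IsSol Ω g₁ A₁ h w₁ ∧ IsSol Ω g₂ A₂ f u₂ ∧ IsSol Ω g₂ A₂ h w₂ ∧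
        dirForm Ω g₁ A₁ u₁ w₁ = dirForm Ω g₂ A₂ u₂ w₂

end Vale.Agent.Lib.P088
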