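import Vale.Agent.Lib.P088.Parallel

/-!
# P088: parallel frames and the gauge transformation
-/

open scoped ContDiff ComplexConjugate Topology
open MeasureTheory Filter

namespace Vale.Agent.Lib.P088

variable {n N : ℕ}

/-- `s` is a differentiable section on `Ω`, parallel for `d + A`. -/
def IsParallel (Ω : Set (Eu n)) (A : Eu n → Fin n → Matrix (Fin N) (Fin N) ℂ)
    (s : Eu n → Fin N → ℂ) : Prop :=
  (∀ x ∈ Ω, ∀ i, DifferentiableAt ℝ (fun y => s y i) x) ∧
    ∀ x ∈ Ω, ∀ k i, pd k (fun y => s y i) x = - ∑ l, A x k i l * s x l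

lemma IsParallel.sub {Ω : Set (Eu n)} {A : Eu n → Fin n → Matrix (Fin N) (Fin N) ℂ}
    {s t : Eu n → Fin N → ℂ} (hs : IsParallel Ω A s) (ht : IsParallel Ω A t) :
    IsParallel Ω A (fun y i => s y i - t y i) := by
  refine ⟨fun x hx i => (hs.1 x hx i).fun_sub (ht.1 x hx i), fun x hx k i => ?_⟩
  rw [pd_sub (hs.1 x hx i) (ht.1 x hx i), hs.2 x hx k i, ht.2 x hx k i]
  simp only [mul_sub, Finset.sum_sub_distrib]
  ring

lemma conj_skew {A : Eu n → Fin n → Matrix (Fin N) (Fin N) ℂ} (hA : IsUnitaryConn A) (x : Eu n)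
    (k : Fin n) (i j : Fin N) : conj (A x k i j) = - A x k j i := by
  have := congrFun (congrFun (hA.2 x k) j) i
  simpa [Matrix.conjTranspose_apply] using this

lemma IsParallel.inner_const {Ω : Set (Eu n)} (ho : IsOpen Ω) (hc : IsPreconnected Ω)
    {A : Eu n → Fin n → Matrix (Fin N) (Fin N) ℂ} (hA : IsUnitaryConn A)
    {s t : Eu n → Fin N → ℂ} (hs : IsParallel Ω A s) (ht : IsParallel Ω A t) {x y : Eu n}
    (hx : x ∈ Ω) (hy : y ∈ Ω) :
    ∑ i, conj (s x i) * t x i = ∑ i, conj (s y i) * t y i := by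
  have hcs : ∀ z ∈ Ω, ∀ i, DifferentiableAt ℝ (fun y => conj (s y i)) z := fun z hz i =>
    (Complex.conjCLE : ℂ →L[ℝ] ℂ).differentiableAt.comp z (hs.1 z hz i)
  have hd : DifferentiableOn ℝ (fun z => ∑ i, conj (s z i) * t z i) Ω := fun z hz =>
    (DifferentiableAt.fun_sum fun i _ => (hcs z hz i).fun_mul (ht.1 z hz i)).differentiableWithinAt
  refine ho.is_const_of_fderiv_eq_zero hc hd (fun z hz => ?_) hx hy
  apply fderiv_eq_zero_of_pd
  intro k
  rw [pd_sum _ fun i _ => (hcs z hz i).fun_mul (ht.1 z hz i)]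
  have h1 : ∀ i ∈ Finset.univ, pd k (fun y => conj (s y i) * t y i) z =
      (∑ l, A z k l i * conj (s z l) * t z i) - ∑ l, conj (s z i) * A z k i l * t z l := by
    intro i _
    rw [pd_mul (hcs z hz i) (ht.1 z hz i), pd_conj (hs.1 z hz i), hs.2 z hz k i, ht.2 z hz k i]
    simp only [map_neg, map_sum, map_mul, conj_skew hA, Finset.sum_mul, Finset.mul_sum,
      mul_neg, neg_mul, Finset.sum_neg_distrib, neg_neg]
    rw [sub_eq_add_neg]
    congr 2
    exact Finset.sum_congr rfl fun l _ => by ring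
  rw [Finset.sum_congr rfl h1, Finset.sum_sub_distrib, Finset.sum_comm, sub_eq_zero]
  exact Finset.sum_congr rfl fun i _ => Finset.sum_congr rfl fun l _ => by ring

/-- If the inner product of two parallel sections has a limit at a point of the closure, it is
equal to this limit everywhere. -/
lemma IsParallel.inner_eq_of_tendsto {Ω : Set (Eu n)} (ho : IsOpen Ω) (hc : IsPreconnected Ω)
    {A : Eu n → Fin n → Matrix (Fin N) (Fin N) ℂ} (hA : IsUnitaryConn A)
    {s t : Eu n → Fin N → ℂ} (hs : IsParallel Ω A s) (ht : IsParallel Ω A t) {p : Eu n}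
    (hp : p ∈ closure Ω) {a b : Fin N → ℂ}
    (hsa : ∀ i, Tendsto (fun y => s y i) (𝓝[Ω] p) (𝓝 (a i)))
    (htb : ∀ i, Tendsto (fun y => t y i) (𝓝[Ω] p) (𝓝 (b i))) {x : Eu n} (hx : x ∈ Ω) :
    ∑ i, conj (s x i) * t x i = ∑ i, conj (a i) * b i := by
  have h1 : Tendsto (fun y => ∑ i, conj (s y i) * t y i) (𝓝[Ω] p)
      (𝓝 (∑ i, conj (a i) * b i)) :=
    tendsto_finsetSum _ fun i _ =>
      ((Complex.continuous_conj.tendsto _).comp (hsa i)).mul (htb i)
  have h2 : Tendsto (fun y => ∑ i, conj (s y i) * t y i) (𝓝[Ω] p)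
      (𝓝 (∑ i, conj (s x i) * t x i)) := by
    refine tendsto_const_nhds.congr' ?_
    filter_upwards [self_mem_nhdsWithin] with y hy using hs.inner_const ho hc hA ht hx hy
  have : (𝓝[Ω] p).NeBot := mem_closure_iff_nhdsWithin_neBot.1 hp
  exact tendsto_nhds_unique h2 h1

/-- Two parallel sections with the same limit at a point of the closure coincide. -/
lemma IsParallel.eq_of_tendsto {Ω : Set (Eu n)} (ho : IsOpen Ω) (hc : IsPreconnected Ω)
    {A : Eu n → Fin n → Matrix (Fin N) (Fin N) ℂ} (hA : IsUnitaryConn A)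
    {s t : Eu n → Fin N → ℂ} (hs : IsParallel Ω A s) (ht : IsParallel Ω A t) {p : Eu n}
    (hp : p ∈ closure Ω) {a : Fin N → ℂ}
    (hsa : ∀ i, Tendsto (fun y => s y i) (𝓝[Ω] p) (𝓝 (a i)))
    (hta : ∀ i, Tendsto (fun y => t y i) (𝓝[Ω] p) (𝓝 (a i))) {x : Eu n} (hx : x ∈ Ω)
    (i : Fin N) : s x i = t x i := by
  have hd := hs.sub ht
  have hlim : ∀ i, Tendsto (fun y => s y i - t y i) (𝓝[Ω] p) (𝓝 ((fun _ => (0 : ℂ)) i)) := by
    intro i
    have := (hsa i).sub (hta i)
    simpa using this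
  have h1 := hd.inner_eq_of_tendsto ho hc hA hd hp hlim hlim hx
  simp only [mul_zero, Finset.sum_const_zero] at h1
  have h2 : ∀ i ∈ Finset.univ, (0 : ℝ) ≤ Complex.normSq (s x i - t x i) := fun i _ =>
    Complex.normSq_nonneg _
  have h3 : ∑ i, Complex.normSq (s x i - t x i) = 0 := by
    have h4 : ((∑ i, Complex.normSq (s x i - t x i) : ℝ) : ℂ) = 0 := by
      rw [← h1]
      push_cast
      exact Finset.sum_congr rfl fun i _ => by rw [Complex.normSq_eq_conj_mul_self]
    exact_mod_cast h4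
  have h5 := (Finset.sum_eq_zero_iff_of_nonneg h2).1 h3 i (Finset.mem_univ i)
  exact sub_eq_zero.1 (Complex.normSq_eq_zero.1 h5)

/-- An orthonormal parallel frame `S` gives the gauge `U = Sᴴ` with `A = U⁻¹ dU`. -/
lemma gauge_of_frame {Ω : Set (Eu n)} {A : Eu n → Fin n → Matrix (Fin N) (Fin N) ℂ}
    (hA : IsUnitaryConn A) {S : Eu n → Matrix (Fin N) (Fin N) ℂ}
    (hpar : ∀ j, IsParallel Ω A (fun y i => S y i j))
    (hon : ∀ x ∈ Ω, (S x).conjTranspose * S x = 1) {x : Eu n} (hx : x ∈ Ω) (k : Fin n) :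
    A x k = ((S x).conjTranspose)⁻¹ *
      Matrix.of (fun i j => pd k (fun y => conj (S y j i)) x) := by
  have h1 : ((S x).conjTranspose)⁻¹ = S x := Matrix.inv_eq_right_inv (hon x hx)
  have h2 : S x * (S x).conjTranspose = 1 := mul_eq_one_comm.1 (hon x hx)
  have h3 : Matrix.of (fun i j => pd k (fun y => conj (S y j i)) x) =
      (S x).conjTranspose * A x k := by
    ext i j
    simp only [Matrix.of_apply, Matrix.mul_apply, Matrix.conjTranspose_apply]
    rw [pd_conj ((hpar i).1 x hx j), (hpar i).2 x hx k j]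
    simp only [map_neg, map_sum, map_mul, conj_skew hA, neg_mul, Finset.sum_neg_distrib, neg_neg,
      Complex.star_def]
    exact Finset.sum_congr rfl fun l _ => by ring
  rw [h1, h3, ← Matrix.mul_assoc, h2, Matrix.one_mul]

/-- Bump functions adapted to a relatively open subset of the boundary. -/
lemma exists_bump {Ω Γ : Set (Eu n)} (hΓ : ∃ O : Set (Eu n), IsOpen O ∧ Γ = O ∩ frontier Ω)
    {p : Eu n} (hp : p ∈ Γ) :
    ∃ φ : Eu n → ℝ, ContDiff ℝ ∞ φ ∧ (∀ x, 0 ≤ φ x) ∧ 0 < φ p ∧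
      closure {x | x ∈ frontier Ω ∧ φ x ≠ 0} ⊆ Γ := by
  obtain ⟨O, hO, rfl⟩ := hΓ
  obtain ⟨r, hr, hrO⟩ := Metric.isOpen_iff.1 hO p hp.1
  let b : ContDiffBump p := ⟨r / 4, r / 2, by positivity, by linarith⟩
  refine ⟨b, b.contDiff, fun x => b.nonneg, ?_, ?_⟩
  · have : b p = 1 := b.one_of_mem_closedBall (Metric.mem_closedBall_self (by positivity))
    rw [this]
    exact one_pos
  · have hsub : {x | x ∈ frontier Ω ∧ b x ≠ 0} ⊆ Metric.closedBall p (r / 2) ∩ frontier Ω := by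
      rintro x ⟨hx, hne⟩
      have : x ∈ Function.support b := hne
      rw [b.support_eq] at this
      exact ⟨Metric.ball_subset_closedBall this, hx⟩
    have hcl : IsClosed (Metric.closedBall p (r / 2) ∩ frontier Ω) :=
      Metric.isClosed_closedBall.inter isClosed_frontier
    refine (closure_minimal hsub hcl).trans ?_
    rintro x ⟨hx1, hx2⟩
    refine ⟨hrO ?_, hx2⟩
    have : dist x p ≤ r / 2 := Metric.mem_closedBall.1 hx1
    exact Metric.mem_ball.2 (by linarith)

end Vale.Agent.Lib.P088
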