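import Vale.Agent.Lib.P088.Frame

/-!
# P088: full data, arbitrary pairs of metrics, one trivial connection
-/

open scoped ContDiff ComplexConjugate Topology
open MeasureTheory Filter

namespace Vale.Agent.Lib.P088

variable {n N : ℕ}

lemma eq_of_const_on' {Ω : Set (Eu n)} {f : Eu n → ℂ} {c : ℂ} (hf : ContinuousOn f (closure Ω))
    (hc : ∀ x ∈ Ω, f x = c) {p : Eu n} (hp : p ∈ closure Ω) : f p = c := by
  have h1 : Tendsto f (𝓝[Ω] p) (𝓝 (f p)) := (hf p hp).mono subset_closure
  have h2 : Tendsto f (𝓝[Ω] p) (𝓝 c) := by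
    refine tendsto_const_nhds.congr' ?_
    filter_upwards [self_mem_nhdsWithin] with x hx using (hc x hx).symm
  have : (𝓝[Ω] p).NeBot := mem_closure_iff_nhdsWithin_neBot.1 hp
  exact tendsto_nhds_unique h1 h2

/-- With full data, a pair sharing its data with a pair with trivial connection has, for every
`j`, a parallel section which is smooth up to the boundary and equals `e_j` on the boundary. -/
lemma exists_parallel_full {Ω : Set (Eu n)} (ho : IsOpen Ω) (hb : Bornology.IsBounded Ω)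
    {g₁ g₂ : Eu n → Matrix (Fin n) (Fin n) ℝ} (hg₁ : IsSmoothMetric g₁) (hg₂ : IsSmoothMetric g₂)
    {A : Eu n → Fin n → Matrix (Fin N) (Fin N) ℂ} (hA : IsUnitaryConn A)
    (hdata : SameData Ω (frontier Ω) g₁ A g₂ (zeroConn n N)) (j : Fin N) :
    ∃ s : Eu n → Fin N → ℂ, (∀ i, SmoothUpTo Ω fun y => s y i) ∧
      (∀ x ∈ frontier Ω, ∀ i, s x i = if i = j then 1 else 0) ∧ IsParallel Ω A s := by
  have hone : ContDiff ℝ ∞ (fun _ : Eu n => (1 : ℝ)) := contDiff_const
  have hf : IsDatum Ω (frontier Ω) (sect j (fun _ : Eu n => (1 : ℝ))) :=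
    isDatum_sect hone (closure_minimal (fun x hx => hx.1) isClosed_frontier) j
  obtain ⟨u, w₁, V, w₂, hu, hw₁, hV, hw₂, hE⟩ := hdata _ _ hf hf
  have hE1 : dirForm Ω g₁ A u u = dirForm Ω g₁ A u w₁ :=
    dirForm_eq_of_same_bdry ho hb hg₁ hA hu hu.1 hw₁.1 fun x hx => by
      rw [hu.2.1 x hx, hw₁.2.1 x hx]
  have hE2 : dirForm Ω g₂ (zeroConn n N) V w₂ =
      dirForm Ω g₂ (zeroConn n N) V (sect j (fun _ : Eu n => (1 : ℝ))) :=
    dirForm_eq_of_same_bdry ho hb hg₂ isUnitaryConn_zero hV hw₂.1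
      (smoothUpTo_sect j (SmoothUpTo.const 1)) fun x hx => hw₂.2.1 x hx
  have hzero : ∫ x in Ω, Qc (cond g₁ x) (covD A u x) = 0 := by
    rw [← dirForm_self_re hb hg₁ hA hu.1, hE1, hE, hE2,
      dirForm_zero_sect_re ho hb hg₂ j hV.1 (SmoothUpTo.const 1)]
    have : ∀ x, grad (fun _ : Eu n => (1 : ℝ)) x = fun _ => 0 := fun x => by
      funext k
      exact pd_const _ _ _
    simp only [this, qf_zero_right, integral_zero]
  have hQ : ∀ x ∈ Ω, Qc (cond g₁ x) (covD A u x) = 0 :=
    eq_zero_of_setIntegral_eq_zero ho ((continuousOn_Qc_covD hg₁.cond hA hu.1).mono subset_closure)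
      (integrableOn_of_continuousOn_closure hb (continuousOn_Qc_covD hg₁.cond hA hu.1))
      (fun x _ => Qc_nonneg (hg₁.cond.2 x).posSemidef _) hzero
  refine ⟨u, hu.1, fun x hx i => ?_, fun x hx i => (hu.1 i).differentiableAt' hx,
    fun x hx k i => ?_⟩
  · rw [hu.2.1 x hx]
    simp [sect]
  · have := Qc_eq_zero (hg₁.cond.2 x) (hQ x hx) k i
    simp only [covD] at this
    linear_combination this

/-- the section `Sᴴ u` -/
noncomputable def gaugeSect (S : Eu n → Matrix (Fin N) (Fin N) ℂ) (u : Eu n → Fin N → ℂ) :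
    Eu n → Fin N → ℂ := fun y i => ∑ l, conj (S y l i) * u y l

lemma smoothUpTo_gaugeSect {Ω : Set (Eu n)} {S : Eu n → Matrix (Fin N) (Fin N) ℂ}
    (hS : ∀ i j, SmoothUpTo Ω fun y => S y i j) {u : Eu n → Fin N → ℂ}
    (hu : ∀ i, SmoothUpTo Ω fun y => u y i) (i : Fin N) :
    SmoothUpTo Ω fun y => gaugeSect S u y i :=
  SmoothUpTo.sum _ fun l _ => (hS l i).conj.mul (hu l)

lemma covD_gaugeSect {Ω : Set (Eu n)} {A : Eu n → Fin n → Matrix (Fin N) (Fin N) ℂ}
    (hA : IsUnitaryConn A) {S : Eu n → Matrix (Fin N) (Fin N) ℂ}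
    (hpar : ∀ j, IsParallel Ω A (fun y i => S y i j)) {u : Eu n → Fin N → ℂ} {x : Eu n}
    (hx : x ∈ Ω) (hu : ∀ i, DifferentiableAt ℝ (fun y => u y i) x) (k : Fin n) (i : Fin N) :
    covD (zeroConn n N) (gaugeSect S u) x k i = ∑ l, conj (S x l i) * covD A u x k l := by
  have hcs : ∀ l, DifferentiableAt ℝ (fun y => conj (S y l i)) x := fun l =>
    (Complex.conjCLE : ℂ →L[ℝ] ℂ).differentiableAt.comp x ((hpar i).1 x hx l)
  simp only [covD, zeroConn, Matrix.zero_apply, zero_mul, Finset.sum_const_zero, add_zero,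
    gaugeSect]
  rw [pd_sum _ fun l _ => (hcs l).fun_mul (hu l)]
  have h1 : ∀ l ∈ Finset.univ, pd k (fun y => conj (S y l i) * u y l) x =
      (∑ m, A x k m l * conj (S x m i) * u x l) + conj (S x l i) * pd k (fun y => u y l) x := by
    intro l _
    rw [pd_mul (hcs l) (hu l), pd_conj ((hpar i).1 x hx l), (hpar i).2 x hx k l]
    simp only [map_neg, map_sum, map_mul, conj_skew hA, neg_mul, Finset.sum_neg_distrib, neg_neg,
      Finset.sum_mul]
  rw [Finset.sum_congr rfl h1, Finset.sum_add_distrib, Finset.sum_comm]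
  simp only [mul_add, Finset.sum_add_distrib, Finset.mul_sum]
  rw [add_comm]
  congr 1
  exact Finset.sum_congr rfl fun m _ => Finset.sum_congr rfl fun l _ => by ring

lemma sum_gauge_mul_conj {M : Matrix (Fin N) (Fin N) ℂ} (hM : M * M.conjTranspose = 1)
    (a b : Fin N → ℂ) :
    ∑ i, (∑ l, conj (M l i) * a l) * conj (∑ m, conj (M m i) * b m) = ∑ l, a l * conj (b l) := by
  have h1 : ∀ m l, ∑ i, M m i * conj (M l i) = if m = l then 1 else 0 := by
    intro m l
    have := congrFun (congrFun hM m) l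
    simpa [Matrix.mul_apply, Matrix.conjTranspose_apply, Matrix.one_apply] using this
  simp only [map_sum, map_mul, Complex.conj_conj, Finset.sum_mul, Finset.mul_sum]
  rw [Finset.sum_comm]
  refine Finset.sum_congr rfl fun l _ => ?_
  rw [Finset.sum_comm]
  have h2 : ∀ m ∈ Finset.univ, ∑ i, conj (M m i) * a m * (M l i * conj (b l)) =
      (if l = m then 1 else 0) * (a m * conj (b l)) := by
    intro m _
    rw [← h1 l m, Finset.sum_mul]
    exact Finset.sum_congr rfl fun i _ => by ring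
  rw [Finset.sum_congr rfl h2]
  simp

lemma dirDens_gaugeSect {Ω : Set (Eu n)} (g : Eu n → Matrix (Fin n) (Fin n) ℝ)
    {A : Eu n → Fin n → Matrix (Fin N) (Fin N) ℂ}
    (hA : IsUnitaryConn A) {S : Eu n → Matrix (Fin N) (Fin N) ℂ}
    (hpar : ∀ j, IsParallel Ω A (fun y i => S y i j))
    (hon : ∀ x ∈ Ω, (S x).conjTranspose * S x = 1) {u w : Eu n → Fin N → ℂ} {x : Eu n}
    (hx : x ∈ Ω) (hu : ∀ i, DifferentiableAt ℝ (fun y => u y i) x)
    (hw : ∀ i, DifferentiableAt ℝ (fun y => w y i) x) :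
    dirDens g (zeroConn n N) (gaugeSect S u) (gaugeSect S w) x = dirDens g A u w x := by
  have h2 : S x * (S x).conjTranspose = 1 := mul_eq_one_comm.1 (hon x hx)
  simp only [dirDens, covD_gaugeSect hA hpar hx hu, covD_gaugeSect hA hpar hx hw,
    sum_gauge_mul_conj h2]

lemma isSol_gaugeSect {Ω : Set (Eu n)} (ho : IsOpen Ω) (g : Eu n → Matrix (Fin n) (Fin n) ℝ)
    {A : Eu n → Fin n → Matrix (Fin N) (Fin N) ℂ}
    (hA : IsUnitaryConn A) {S : Eu n → Matrix (Fin N) (Fin N) ℂ}
    (hS : ∀ i j, SmoothUpTo Ω fun y => S y i j)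
    (hpar : ∀ j, IsParallel Ω A (fun y i => S y i j))
    (hon : ∀ x ∈ Ω, (S x).conjTranspose * S x = 1) (hbd : ∀ x ∈ frontier Ω, S x = 1)
    {f u : Eu n → Fin N → ℂ} (hu : IsSol Ω g A f u) :
    IsSol Ω g (zeroConn n N) f (gaugeSect S u) := by
  refine ⟨smoothUpTo_gaugeSect hS hu.1, fun x hx => ?_, fun w hw hw0 => ?_⟩
  · funext i
    simp [gaugeSect, hbd x hx, Matrix.one_apply, hu.2.1 x hx]
  · -- the test function `S w`
    set w' : Eu n → Fin N → ℂ := fun y l => ∑ i, S y l i * w y i with hw'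
    have hw'S : ∀ l, SmoothUpTo Ω fun y => w' y l := fun l =>
      SmoothUpTo.sum _ fun i _ => (hS l i).mul (hw i)
    have hw'0 : ∀ x ∈ frontier Ω, w' x = 0 := by
      intro x hx
      funext l
      simp [hw', hw0 x hx]
    have hback : ∀ y ∈ Ω, gaugeSect S w' y = w y := by
      intro y hy
      funext i
      have h1 : ∀ i m, ∑ l, conj (S y l i) * S y l m = if i = m then 1 else 0 := by
        intro i m
        have := congrFun (congrFun (hon y hy) i) m
        simpa [Matrix.mul_apply, Matrix.conjTranspose_apply, Matrix.one_apply] using this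
      simp only [gaugeSect, hw', Finset.mul_sum]
      rw [Finset.sum_comm]
      have h2 : ∀ m ∈ Finset.univ, ∑ l, conj (S y l i) * (S y l m * w y m) =
          (if i = m then 1 else 0) * w y m := by
        intro m _
        rw [← h1 i m, Finset.sum_mul]
        exact Finset.sum_congr rfl fun l _ => by ring
      rw [Finset.sum_congr rfl h2]
      simp
    have h0 := hu.2.2 w' hw'S hw'0
    unfold dirForm at h0 ⊢
    rw [← h0]
    refine setIntegral_congr_fun ho.measurableSet fun x hx => ?_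
    rw [← dirDens_gaugeSect g hA hpar hon hx (fun i => (hu.1 i).differentiableAt' hx)
      (fun i => (hw'S i).differentiableAt' hx)]
    have hcov : ∀ l i, covD (zeroConn n N) w x l i = covD (zeroConn n N) (gaugeSect S w') x l i := by
      intro l i
      simp only [covD, hback x hx]
      congr 1
      apply pd_congr_of_eventuallyEq
      filter_upwards [ho.mem_nhds hx] with y hy
      rw [hback y hy]
    simp only [dirDens, hcov]

theorem full_data_gauge (Ω : Set (Eu n)) (ho : IsOpen Ω) (hc : IsConnected Ω)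
    (hb : Bornology.IsBounded Ω) (hfr : (frontier Ω).Nonempty)
    (g₁ g₂ : Eu n → Matrix (Fin n) (Fin n) ℝ)
    (hg₁ : IsSmoothMetric g₁) (hg₂ : IsSmoothMetric g₂)
    (A : Eu n → Fin n → Matrix (Fin N) (Fin N) ℂ) (hA : IsUnitaryConn A)
    (hdata : SameData Ω (frontier Ω) g₁ A g₂ (fun _ _ => 0)) :
    ∃ U : Eu n → Matrix (Fin N) (Fin N) ℂ,
      (∀ i j, SmoothUpTo Ω (fun x => U x i j)) ∧
      (∀ x ∈ closure Ω, U x ∈ Matrix.unitaryGroup (Fin N) ℂ) ∧
      (∀ x ∈ frontier Ω, U x = 1) ∧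
      (∀ x ∈ Ω, ∀ k, A x k = (U x)⁻¹ * Matrix.of (fun i j => pd k (fun y => U y i j) x)) ∧
      SameData Ω (frontier Ω) g₁ (fun _ _ => (0 : Matrix (Fin N) (Fin N) ℂ)) g₂ (fun _ _ => 0) := by
  have hdata' : SameData Ω (frontier Ω) g₁ A g₂ (zeroConn n N) := hdata
  have hpc : IsPreconnected Ω := hc.isPreconnected
  obtain ⟨p0, hp0⟩ := hfr
  have hp0c : p0 ∈ closure Ω := frontier_subset_closure hp0
  choose s hs1 hs2 hs3 using fun j => exists_parallel_full ho hb hg₁ hg₂ hA hdata' j
  set S : Eu n → Matrix (Fin N) (Fin N) ℂ := fun x => Matrix.of fun i j => s j x i with hS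
  have hlim : ∀ j i, Tendsto (fun y => s j y i) (𝓝[Ω] p0) (𝓝 (if i = j then 1 else 0)) := by
    intro j i
    have h1 : Tendsto (fun y => s j y i) (𝓝[Ω] p0) (𝓝 (s j p0 i)) :=
      ((hs1 j i).continuousOn p0 hp0c).mono subset_closure
    rwa [hs2 j p0 hp0 i] at h1
  have hon : ∀ x ∈ Ω, (S x).conjTranspose * S x = 1 := by
    intro x hx
    ext j j'
    simp only [Matrix.mul_apply, Matrix.conjTranspose_apply, hS, Matrix.of_apply,
      Complex.star_def]
    rw [(hs3 j).inner_eq_of_tendsto ho hpc hA (hs3 j') hp0c (hlim j) (hlim j') hx]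
    simp [Matrix.one_apply, eq_comm]
  have honc : ∀ x ∈ closure Ω, (S x).conjTranspose * S x = 1 := by
    intro x hx
    ext j j'
    have hcont : ContinuousOn (fun y => ((S y).conjTranspose * S y) j j') (closure Ω) := by
      simp only [Matrix.mul_apply, Matrix.conjTranspose_apply, hS, Matrix.of_apply,
        Complex.star_def]
      exact continuousOn_finsetSum _ fun i _ =>
        (Complex.continuous_conj.comp_continuousOn (hs1 j i).continuousOn).mul
          (hs1 j' i).continuousOn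
    exact eq_of_const_on' hcont (fun y hy => by rw [hon y hy]) hx
  have hSbd : ∀ x ∈ frontier Ω, S x = 1 := by
    intro x hx
    ext i j
    simp only [hS, Matrix.of_apply, hs2 j x hx i, Matrix.one_apply]
  have hsame : SameData Ω (frontier Ω) g₁ (zeroConn n N) g₂ (zeroConn n N) := by
    intro f h hf hh
    obtain ⟨u₁, w₁, u₂, w₂, hu₁, hw₁, hu₂, hw₂, hE⟩ := hdata' f h hf hh
    refine ⟨gaugeSect S u₁, gaugeSect S w₁, u₂, w₂,
      isSol_gaugeSect ho g₁ hA (fun i j => hs1 j i) (fun j => hs3 j) hon hSbd hu₁,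
      isSol_gaugeSect ho g₁ hA (fun i j => hs1 j i) (fun j => hs3 j) hon hSbd hw₁, hu₂, hw₂, ?_⟩
    rw [← hE]
    unfold dirForm
    exact setIntegral_congr_fun ho.measurableSet fun x hx =>
      dirDens_gaugeSect g₁ hA (fun j => hs3 j) hon hx (fun i => (hu₁.1 i).differentiableAt' hx)
        (fun i => (hw₁.1 i).differentiableAt' hx)
  refine ⟨fun x => (S x).conjTranspose, fun i j => ?_, fun x hx => ?_, fun x hx => ?_,
    fun x hx k => ?_, hsame⟩
  · simp only [hS, Matrix.conjTranspose_apply, Matrix.of_apply, Complex.star_def]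
    exact (hs1 i j).conj
  · rw [Matrix.mem_unitaryGroup_iff]
    simpa [Matrix.star_eq_conjTranspose] using honc x hx
  · ext i j
    simp only [hS, Matrix.conjTranspose_apply, Matrix.of_apply, hs2 i x hx j, Matrix.one_apply]
    by_cases hij : i = j
    · simp [hij]
    · simp [hij, Ne.symm hij]
  · have := gauge_of_frame hA (S := S) (fun j => hs3 j) hon hx k
    simpa [Matrix.conjTranspose_apply] using this

end Vale.Agent.Lib.P088
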