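import Vale.Agent.Lib.P088.Picone

/-!
# P088: passing to the limit in the regularised ground state identity
-/

open scoped ContDiff ComplexConjugate Topology
open MeasureTheory Filter

namespace Vale.Agent.Lib.P088

variable {n N : ℕ}

lemma continuousOn_rem {Ω : Set (Eu n)} {A : Eu n → Fin n → Matrix (Fin N) (Fin N) ℂ}
    (hA : IsUnitaryConn A) {u : Eu n → Fin N → ℂ} (hu : ∀ i, SmoothUpTo Ω fun y => u y i)
    {v : Eu n → ℝ} (hv : SmoothUpTo Ω v) {ε : ℝ} (hκ : ∀ x ∈ closure Ω, 0 < v x + ε)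
    (k : Fin n) (i : Fin N) : ContinuousOn (fun x => rem A u v ε x k i) (closure Ω) := by
  simp only [rem]
  refine (continuousOn_covD hA hu k i).sub (ContinuousOn.mul ?_ (hu i).continuousOn)
  refine Complex.continuous_ofReal.comp_continuousOn ?_
  exact (hv.continuousOn_pd k).div (hv.continuousOn.add continuousOn_const)
    fun x hx => ne_of_gt (hκ x hx)

lemma tendsto_error {Ω : Set (Eu n)} (ho : IsOpen Ω) (hb : Bornology.IsBounded Ω)
    {γ : Eu n → Matrix (Fin n) (Fin n) ℝ} (hγ : IsSmoothMetric γ)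
    {v : Eu n → ℝ} (hv : SmoothUpTo Ω v) (hvpos : ∀ x ∈ Ω, 0 < v x) :
    Tendsto (fun ε : ℝ => ∫ x in Ω, (ε ^ 2 / (v x + ε) ^ 2) * qf (γ x) (grad v x) (grad v x))
      (𝓝[>] 0) (𝓝 0) := by
  have hG : ContinuousOn (fun x => qf (γ x) (grad v x) (grad v x)) (closure Ω) :=
    hv.continuousOn_qf_grad hγ hv
  have hIG := integrableOn_of_continuousOn_closure hb hG
  have hGnn : ∀ x, 0 ≤ qf (γ x) (grad v x) (grad v x) := fun x =>
    qf_nonneg (hγ.2 x).posSemidef _
  have key := tendsto_integral_filter_of_dominated_convergence (μ := volume.restrict Ω)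
    (l := 𝓝[>] (0 : ℝ))
    (F := fun ε x => (ε ^ 2 / (v x + ε) ^ 2) * qf (γ x) (grad v x) (grad v x))
    (f := fun _ => (0 : ℝ)) (fun x => qf (γ x) (grad v x) (grad v x)) ?_ ?_ hIG ?_
  · simpa using key
  · filter_upwards [self_mem_nhdsWithin] with ε hε
    have hε' : (0 : ℝ) < ε := hε
    refine ContinuousOn.aestronglyMeasurable ?_ ho.measurableSet
    refine ContinuousOn.mul ?_ (hG.mono subset_closure)
    refine continuousOn_const.div (((hv.continuousOn.mono subset_closure).add
      continuousOn_const).pow 2) fun x hx => ?_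
    have := hvpos x hx
    positivity
  · filter_upwards [self_mem_nhdsWithin] with ε hε
    have hε' : (0 : ℝ) < ε := hε
    refine (ae_restrict_iff' ho.measurableSet).2 (Eventually.of_forall fun x hx => ?_)
    have h1 := hvpos x hx
    have h2 : ε ^ 2 / (v x + ε) ^ 2 ≤ 1 := by
      rw [div_le_one (by positivity)]
      exact pow_le_pow_left₀ hε'.le (by linarith) 2
    have h3 : 0 ≤ ε ^ 2 / (v x + ε) ^ 2 := by positivity
    rw [Real.norm_eq_abs, abs_of_nonneg (mul_nonneg h3 (hGnn x))]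
    have := hGnn x
    nlinarith
  · refine (ae_restrict_iff' ho.measurableSet).2 (Eventually.of_forall fun x hx => ?_)
    have h1 := hvpos x hx
    have hc : ContinuousAt
        (fun ε : ℝ => (ε ^ 2 / (v x + ε) ^ 2) * qf (γ x) (grad v x) (grad v x)) 0 := by
      refine ContinuousAt.mul ?_ continuousAt_const
      refine ContinuousAt.div (continuousAt_id.pow 2)
        ((continuousAt_const.add continuousAt_id).pow 2) ?_
      simp only [add_zero]
      positivity
    have h2 := hc.tendsto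
    simp only [ne_eq, OfNat.ofNat_ne_zero, not_false_eq_true, zero_pow, zero_div, zero_mul] at h2
    exact h2.mono_left nhdsWithin_le_nhds

lemma rem_zero_of_bound {Ω : Set (Eu n)} (ho : IsOpen Ω) (hb : Bornology.IsBounded Ω)
    {γ : Eu n → Matrix (Fin n) (Fin n) ℝ} (hγ : IsSmoothMetric γ)
    {A : Eu n → Fin n → Matrix (Fin N) (Fin N) ℂ} (hA : IsUnitaryConn A)
    {u : Eu n → Fin N → ℂ} (hu : ∀ i, SmoothUpTo Ω fun y => u y i)
    {v : Eu n → ℝ} (hv : SmoothUpTo Ω v) (hvpos : ∀ x ∈ Ω, 0 < v x)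
    (hbound : ∀ ε : ℝ, 0 < ε → ∫ x in Ω, Qc (γ x) (rem A u v ε x) ≤
      ∫ x in Ω, (ε ^ 2 / (v x + ε) ^ 2) * qf (γ x) (grad v x) (grad v x)) :
    ∀ x ∈ Ω, ∀ k i, rem A u v 0 x k i = 0 := by
  intro x0 hx0
  by_contra hne
  have hv0 : ∀ x ∈ closure Ω, 0 ≤ v x :=
    nonneg_on_closure hv.continuousOn fun x hx => (hvpos x hx).le
  have hcpos : 0 < Qc (γ x0) (rem A u v 0 x0) :=
    lt_of_le_of_ne (Qc_nonneg (hγ.2 x0).posSemidef _)
      fun h => hne (Qc_eq_zero (hγ.2 x0) h.symm)
  set c : ℝ := Qc (γ x0) (rem A u v 0 x0) with hc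
  have hnhds : closure Ω ∈ 𝓝 x0 := mem_of_superset (ho.mem_nhds hx0) subset_closure
  have hcont : ContinuousAt (fun p : ℝ × Eu n => Qc (γ p.2) (rem A u v p.1 p.2)) (0, x0) := by
    rw [← continuousWithinAt_univ]
    refine continuousWithinAt_Qc (fun k l => ?_) (fun k i => ?_)
    · rw [continuousWithinAt_univ]
      exact ((hγ.1 k l).continuous.comp continuous_snd).continuousAt
    · rw [continuousWithinAt_univ]
      simp only [rem]
      have hsnd : ContinuousAt (fun p : ℝ × Eu n => p.2) ((0 : ℝ), x0) := continuousAt_snd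
      have h1 : ContinuousAt (fun p : ℝ × Eu n => covD A u p.2 k i) ((0 : ℝ), x0) :=
        ContinuousAt.comp (f := fun p : ℝ × Eu n => p.2) (g := fun x => covD A u x k i)
          ((continuousOn_covD hA hu k i).continuousAt hnhds) hsnd
      have h2 : ContinuousAt (fun p : ℝ × Eu n => u p.2 i) ((0 : ℝ), x0) :=
        ContinuousAt.comp (f := fun p : ℝ × Eu n => p.2) (g := fun x => u x i)
          ((hu i).continuousOn.continuousAt hnhds) hsnd
      have h3 : ContinuousAt (fun p : ℝ × Eu n => pd k v p.2) ((0 : ℝ), x0) :=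
        ContinuousAt.comp (f := fun p : ℝ × Eu n => p.2) (g := fun x => pd k v x)
          ((hv.continuousOn_pd k).continuousAt hnhds) hsnd
      have h4 : ContinuousAt (fun p : ℝ × Eu n => v p.2 + p.1) ((0 : ℝ), x0) :=
        (ContinuousAt.comp (f := fun p : ℝ × Eu n => p.2) (g := fun x => v x)
          (hv.continuousOn.continuousAt hnhds) hsnd).add continuousAt_fst
      have h5 : ContinuousAt (fun p : ℝ × Eu n => pd k v p.2 / (v p.2 + p.1)) ((0 : ℝ), x0) :=
        h3.div h4 (by simpa using ne_of_gt (hvpos x0 hx0))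
      exact h1.sub ((Complex.continuous_ofReal.continuousAt.comp h5).mul h2)
  have hev : ∀ᶠ p in 𝓝 ((0 : ℝ), x0), c / 2 < Qc (γ p.2) (rem A u v p.1 p.2) :=
    hcont.eventually (lt_mem_nhds (by simp only [← hc]; linarith))
  rw [nhds_prod_eq, eventually_prod_iff] at hev
  obtain ⟨pa, hpa, pb, hpb, hab⟩ := hev
  obtain ⟨r, hr, hrsub⟩ := Metric.eventually_nhds_iff_ball.1 (hpb.and (ho.eventually_mem hx0))
  have hvol : 0 < (volume : Measure (Eu n)).real (Metric.ball x0 r) := by
    rw [measureReal_def]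
    exact ENNReal.toReal_pos (Metric.measure_ball_pos volume x0 hr).ne'
      measure_ball_lt_top.ne
  have hlow : ∀ᶠ ε in 𝓝[>] (0 : ℝ), c / 2 * (volume : Measure (Eu n)).real (Metric.ball x0 r) ≤
      ∫ x in Ω, (ε ^ 2 / (v x + ε) ^ 2) * qf (γ x) (grad v x) (grad v x) := by
    filter_upwards [self_mem_nhdsWithin, nhdsWithin_le_nhds hpa] with ε hε hpaε
    have hε' : (0 : ℝ) < ε := hε
    have hκ : ∀ x ∈ closure Ω, 0 < v x + ε := fun x hx => by
      have := hv0 x hx
      linarith
    have hQc : ContinuousOn (fun x => Qc (γ x) (rem A u v ε x)) (closure Ω) :=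
      continuousOn_Qc (hγ.continuousOn _) (continuousOn_rem hA hu hv hκ)
    have hQi : IntegrableOn (fun x => Qc (γ x) (rem A u v ε x)) Ω :=
      integrableOn_of_continuousOn_closure hb hQc
    have hsub : Metric.ball x0 r ⊆ Ω := fun y hy => (hrsub y hy).2
    have h1 : c / 2 * (volume : Measure (Eu n)).real (Metric.ball x0 r) ≤
        ∫ x in Metric.ball x0 r, Qc (γ x) (rem A u v ε x) :=
      setIntegral_ge_of_const_le_real measurableSet_ball measure_ball_lt_top.ne
        (fun y hy => (hab hpaε (hrsub y hy).1).le) (hQi.mono_set hsub)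
    have h2 : ∫ x in Metric.ball x0 r, Qc (γ x) (rem A u v ε x) ≤
        ∫ x in Ω, Qc (γ x) (rem A u v ε x) :=
      setIntegral_mono_set hQi
        (Eventually.of_forall fun x => Qc_nonneg (hγ.2 x).posSemidef _)
        (Eventually.of_forall hsub)
    exact h1.trans (h2.trans (hbound ε hε'))
  have hfin := ge_of_tendsto (tendsto_error ho hb hγ hv hvpos) hlow
  have : 0 < c / 2 * (volume : Measure (Eu n)).real (Metric.ball x0 r) := by positivity
  linarith

end Vale.Agent.Lib.P088
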