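import Vale.Agent.Lib.P088.Quad

/-!
# P088: comparison principle and strong positivity for weakly harmonic functions
-/

open scoped ContDiff ComplexConjugate Topology
open MeasureTheory

namespace Vale.Agent.Lib.P088

variable {n : ℕ}

/-- A smooth nonincreasing function, positive on the negative half-line and zero elsewhere. -/
noncomputable def cut (t : ℝ) : ℝ := expNegInvGlue (-t)

lemma cut_contDiff : ContDiff ℝ ∞ cut := expNegInvGlue.contDiff.comp contDiff_neg

lemma cut_nonneg (t : ℝ) : 0 ≤ cut t := expNegInvGlue.nonneg _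

lemma cut_eq_zero_iff {t : ℝ} : cut t = 0 ↔ 0 ≤ t := by simp [cut]

lemma cut_antitone : Antitone cut := fun _ _ h => expNegInvGlue.monotone (neg_le_neg h)

lemma deriv_cut_nonpos (t : ℝ) : deriv cut t ≤ 0 := cut_antitone.deriv_nonpos

lemma cut_differentiableAt (t : ℝ) : DifferentiableAt ℝ cut t :=
  (cut_contDiff.differentiable (by simp)) t

lemma continuousOn_qf {s : Set (Eu n)} {γ : Eu n → Matrix (Fin n) (Fin n) ℝ}
    (hγ : ∀ k l, ContinuousOn (fun x => γ x k l) s) {a b : Eu n → Fin n → ℝ}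
    (ha : ∀ k, ContinuousOn (fun x => a x k) s) (hb : ∀ k, ContinuousOn (fun x => b x k) s) :
    ContinuousOn (fun x => qf (γ x) (a x) (b x)) s := by
  simp only [qf]
  exact continuousOn_finsetSum _ fun k _ => continuousOn_finsetSum _ fun l _ =>
    ((hγ k l).mul (ha k)).mul (hb l)

lemma IsSmoothMetric.continuousOn {γ : Eu n → Matrix (Fin n) (Fin n) ℝ} (hγ : IsSmoothMetric γ)
    (s : Set (Eu n)) (k l : Fin n) : ContinuousOn (fun x => γ x k l) s :=
  (hγ.1 k l).continuous.continuousOn

lemma SmoothUpTo.continuousOn_qf_grad {Ω : Set (Eu n)} {γ : Eu n → Matrix (Fin n) (Fin n) ℝ}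
    (hγ : IsSmoothMetric γ) {p q : Eu n → ℝ} (hp : SmoothUpTo Ω p) (hq : SmoothUpTo Ω q) :
    ContinuousOn (fun x => qf (γ x) (grad p x) (grad q x)) (closure Ω) :=
  continuousOn_qf (hγ.continuousOn _) (fun k => hp.continuousOn_pd k)
    (fun k => hq.continuousOn_pd k)

/-- A function continuous on the closure and constant on the set has the same value on the
closure. -/
lemma eq_of_const_on {Ω : Set (Eu n)} {f : Eu n → ℝ} {c : ℝ} (hf : ContinuousOn f (closure Ω))
    (hc : ∀ x ∈ Ω, f x = c) {p : Eu n} (hp : p ∈ closure Ω) : f p = c := by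
  have h1 : Filter.Tendsto f (𝓝[Ω] p) (𝓝 (f p)) := (hf p hp).mono subset_closure
  have h2 : Filter.Tendsto f (𝓝[Ω] p) (𝓝 c) := by
    refine tendsto_const_nhds.congr' ?_
    filter_upwards [self_mem_nhdsWithin] with x hx using (hc x hx).symm
  have : (𝓝[Ω] p).NeBot := mem_closure_iff_nhdsWithin_neBot.1 hp
  exact tendsto_nhds_unique h1 h2

lemma grad_cut_comp {w : Eu n → ℝ} {x : Eu n} (hw : DifferentiableAt ℝ w x) :
    grad (fun y => cut (w y)) x = fun l => deriv cut (w x) * grad w x l := by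
  funext l
  exact pd_comp_real (cut_differentiableAt _) hw l

/-- **Comparison lemma.** -/
lemma comparison {Ω : Set (Eu n)} (ho : IsOpen Ω) (hc : IsPreconnected Ω)
    (hb : Bornology.IsBounded Ω) {γ : Eu n → Matrix (Fin n) (Fin n) ℝ} (hγ : IsSmoothMetric γ)
    {w : Eu n → ℝ} (hw : SmoothUpTo Ω w) {p : Eu n} (hp : p ∈ closure Ω) (hwp : 0 ≤ w p)
    (hint : 0 ≤ ∫ x in Ω, qf (γ x) (grad w x) (grad (fun y => cut (w y)) x)) :
    ∀ x ∈ Ω, 0 ≤ w x := by
  have hcw : SmoothUpTo Ω (fun y => cut (w y)) := hw.comp_contDiff cut_contDiff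
  set f : Eu n → ℝ := fun x => qf (γ x) (grad w x) (grad (fun y => cut (w y)) x) with hf
  have hfc : ContinuousOn f (closure Ω) := hw.continuousOn_qf_grad hγ hcw
  have hfeq : ∀ x ∈ Ω, f x = deriv cut (w x) * qf (γ x) (grad w x) (grad w x) := by
    intro x hx
    simp only [hf]
    rw [grad_cut_comp (hw.differentiableAt' hx), qf_smul_right]
  have hfle : ∀ x ∈ Ω, 0 ≤ - f x := by
    intro x hx
    rw [hfeq x hx]
    have h1 := deriv_cut_nonpos (w x)
    have h2 := qf_nonneg (hγ.2 x).posSemidef (grad w x)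
    nlinarith
  have hfi : IntegrableOn f Ω := integrableOn_of_continuousOn_closure hb hfc
  have hzero : ∫ x in Ω, - f x = 0 := by
    have h1 : 0 ≤ ∫ x in Ω, - f x :=
      setIntegral_nonneg ho.measurableSet hfle
    rw [integral_neg] at h1 ⊢
    linarith
  have hf0 : ∀ x ∈ Ω, - f x = 0 :=
    eq_zero_of_setIntegral_eq_zero ho (hfc.mono subset_closure).neg hfi.neg hfle hzero
  have hgrad : ∀ x ∈ Ω, fderiv ℝ (fun y => cut (w y)) x = 0 := by
    intro x hx
    apply fderiv_eq_zero_of_pd
    intro k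
    have h1 : deriv cut (w x) * qf (γ x) (grad w x) (grad w x) = 0 := by
      have := hf0 x hx
      rw [hfeq x hx] at this
      linarith
    have h2 : pd k (fun y => cut (w y)) x = deriv cut (w x) * grad w x k :=
      congrFun (grad_cut_comp (hw.differentiableAt' hx)) k
    rw [h2]
    rcases mul_eq_zero.1 h1 with h | h
    · rw [h, zero_mul]
    · rw [qf_eq_zero (hγ.2 x) h]; simp
  intro x hx
  have hconst : ∀ y ∈ Ω, cut (w y) = cut (w x) := fun y hy =>
    ho.is_const_of_fderiv_eq_zero hc (fun z hz => (hcw.differentiableAt' hz).differentiableWithinAt)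
      hgrad hy hx
  have h3 : cut (w p) = cut (w x) := eq_of_const_on hcw.continuousOn hconst hp
  rw [cut_eq_zero_iff.2 hwp] at h3
  exact cut_eq_zero_iff.1 h3.symm

/-- Integration by parts in `Ω` against a function vanishing outside a compact subset. -/
lemma ibp_compact {Ω K : Set (Eu n)} (ho : IsOpen Ω) (hK : IsCompact K) (hKΩ : K ⊆ Ω)
    {X ζ : Eu n → ℝ} (hX : ContDiff ℝ 1 X) (hζ : ContDiffOn ℝ 1 ζ Ω)
    (hζ0 : ∀ x ∈ Ω, x ∉ K → ζ x = 0) (k : Fin n) :
    ∫ x in Ω, X x * pd k ζ x = - ∫ x in Ω, pd k X x * ζ x := by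
  classical
  set Z : Eu n → ℝ := Ω.indicator ζ with hZ
  have hZin : ∀ x ∈ Ω, Z =ᶠ[𝓝 x] ζ := by
    intro x hx
    filter_upwards [ho.mem_nhds hx] with y hy
    simp [hZ, hy]
  have hZ0 : ∀ y, y ∉ K → Z y = 0 := by
    intro y hy
    by_cases hyΩ : y ∈ Ω
    · simp [hZ, hyΩ, hζ0 y hyΩ hy]
    · simp [hZ, hyΩ]
  have hZout : ∀ x, x ∉ K → Z =ᶠ[𝓝 x] fun _ => (0 : ℝ) := by
    intro x hx
    filter_upwards [hK.isClosed.isOpen_compl.mem_nhds hx] with y hy
    exact hZ0 y hy
  have hZs : ContDiff ℝ 1 Z := by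
    rw [contDiff_iff_contDiffAt]
    intro x
    by_cases hx : x ∈ Ω
    · exact (hζ.contDiffAt (ho.mem_nhds hx)).congr_of_eventuallyEq (hZin x hx)
    · exact contDiffAt_const.congr_of_eventuallyEq (hZout x fun h => hx (hKΩ h))
  have hZc : HasCompactSupport Z := HasCompactSupport.intro hK hZ0
  set v : Eu n := EuclideanSpace.single k (1 : ℝ) with hv
  have hZ' : Continuous fun x => fderiv ℝ Z x v :=
    (hZs.continuous_fderiv one_ne_zero).clm_apply continuous_const
  have hX' : Continuous fun x => fderiv ℝ X x v :=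
    (hX.continuous_fderiv one_ne_zero).clm_apply continuous_const
  have hZ'c : HasCompactSupport fun x => fderiv ℝ Z x v := hZc.fderiv_apply ℝ v
  have key := integral_mul_fderiv_eq_neg_fderiv_mul_of_integrable (μ := volume) (f := X) (g := Z)
    (v := v)
    ((hX'.mul hZs.continuous).integrable_of_hasCompactSupport hZc.mul_left)
    ((hX.continuous.mul hZ').integrable_of_hasCompactSupport hZ'c.mul_left)
    ((hX.continuous.mul hZs.continuous).integrable_of_hasCompactSupport hZc.mul_left)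
    (fun x _ => (hX.differentiable one_ne_zero) x) (fun x _ => (hZs.differentiable one_ne_zero) x)
  have h1 : ∫ x in Ω, X x * pd k ζ x = ∫ x, X x * fderiv ℝ Z x v := by
    have e1 : ∫ x in Ω, X x * fderiv ℝ Z x v = ∫ x, X x * fderiv ℝ Z x v := by
      apply setIntegral_eq_integral_of_forall_compl_eq_zero
      intro x hx
      have : fderiv ℝ Z x = 0 := by
        rw [(hZout x fun h => hx (hKΩ h)).fderiv_eq]
        simp
      simp [this]
    rw [← e1]
    refine setIntegral_congr_fun ho.measurableSet fun x hx => ?_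
    simp only [pd, (hZin x hx).fderiv_eq, hv]
  have h2 : ∫ x in Ω, pd k X x * ζ x = ∫ x, fderiv ℝ X x v * Z x := by
    have e2 : ∫ x in Ω, fderiv ℝ X x v * Z x = ∫ x, fderiv ℝ X x v * Z x := by
      apply setIntegral_eq_integral_of_forall_compl_eq_zero
      intro x hx
      simp [hZ, hx]
    rw [← e2]
    refine setIntegral_congr_fun ho.measurableSet fun x hx => ?_
    simp [pd, hZ, hx, hv]
  rw [h1, h2, key]

end Vale.Agent.Lib.P088
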