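import Vale.Agent.Lib.P088.Bridge

/-!
# P088: equal data with a trivial connection produce parallel sections
-/

open scoped ContDiff ComplexConjugate Topology
open MeasureTheory Filter

namespace Vale.Agent.Lib.P088

variable {n N : ℕ}

lemma isDatum_sect {Ω Γ : Set (Eu n)} {φ : Eu n → ℝ} (hφ : ContDiff ℝ ∞ φ)
    (hφΓ : closure {x | x ∈ frontier Ω ∧ φ x ≠ 0} ⊆ Γ) (j : Fin N) :
    IsDatum Ω Γ (sect j φ) := by
  refine ⟨fun i => ?_, ?_⟩
  · simp only [sect]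
    split_ifs
    · exact Complex.ofRealCLM.contDiff.comp hφ
    · exact contDiff_const
  · refine (closure_mono ?_).trans hφΓ
    rintro x ⟨hx, hne⟩
    refine ⟨hx, fun h0 => hne ?_⟩
    funext i
    simp [sect, h0]

lemma nsq_sect (j : Fin N) (φ : Eu n → ℝ) (x : Eu n) : nsq (sect j φ) x = φ x ^ 2 := by
  simp only [nsq, sect]
  rw [Finset.sum_eq_single j]
  · simp [Complex.normSq_ofReal, sq]
  · intro i _ hij
    simp [hij]
  · simp

lemma exists_parallel {Ω Γ : Set (Eu n)} (ho : IsOpen Ω) (hc : IsPreconnected Ω)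
    (hb : Bornology.IsBounded Ω) {g₁ g₂ : Eu n → Matrix (Fin n) (Fin n) ℝ}
    (hg₁ : IsSmoothMetric g₁) (hg₂ : IsSmoothMetric g₂)
    (hord : ∀ x ∈ Ω, (cond g₁ x - cond g₂ x).PosSemidef)
    {A : Eu n → Fin n → Matrix (Fin N) (Fin N) ℂ} (hA : IsUnitaryConn A)
    (hdata : SameData Ω Γ g₁ A g₂ (zeroConn n N))
    {φ : Eu n → ℝ} (hφ : ContDiff ℝ ∞ φ) (hφ0 : ∀ x ∈ frontier Ω, 0 ≤ φ x)
    (hφΓ : closure {x | x ∈ frontier Ω ∧ φ x ≠ 0} ⊆ Γ) {p0 : Eu n} (hp0 : p0 ∈ frontier Ω)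
    (hφp0 : 0 < φ p0) (j : Fin N) :
    ∃ s : Eu n → Fin N → ℂ,
      (∀ i, ContDiffOn ℝ ∞ (fun y => s y i) Ω) ∧
      (∀ x ∈ Ω, ∀ k i, pd k (fun y => s y i) x = - ∑ l, A x k i l * s x l) ∧
      (∀ p ∈ frontier Ω, 0 < φ p → ∀ i,
        Tendsto (fun y => s y i) (𝓝[Ω] p) (𝓝 (if i = j then 1 else 0))) := by
  have hf : IsDatum Ω Γ (sect j φ) := isDatum_sect hφ hφΓ j
  obtain ⟨u, w₁, V, w₂, hu, hw₁, hV, hw₂, hE⟩ := hdata _ _ hf hf
  set v : Eu n → ℝ := fun y => (V y j).re with hv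
  have hvS : SmoothUpTo Ω v := (hV.1 j).re
  have hvbd : ∀ x ∈ frontier Ω, v x = φ x := by
    intro x hx
    simp [hv, hV.2.1 x hx, sect]
  have hγ₂ := hg₂.cond
  have hharm : WeakHarm Ω (cond g₂) v := weakHarm_of_isSol ho hb hg₂ j hV
  have hv0 : ∀ x ∈ Ω, 0 ≤ v x :=
    hharm.nonneg ho hc hb hγ₂ hvS (fun x hx => by rw [hvbd x hx]; exact hφ0 x hx) ⟨p0, hp0⟩
  have hv0' : ∀ x ∈ closure Ω, 0 ≤ v x := nonneg_on_closure hvS.continuousOn hv0
  -- positivity somewhere, hence everywhere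
  have hp0c : p0 ∈ closure Ω := frontier_subset_closure hp0
  obtain ⟨x1, hx1, hvx1⟩ : ∃ x1 ∈ Ω, 0 < v x1 := by
    have h1 : Tendsto v (𝓝[Ω] p0) (𝓝 (v p0)) := (hvS.continuousOn p0 hp0c).mono subset_closure
    have h2 : ∀ᶠ y in 𝓝[Ω] p0, 0 < v y :=
      h1.eventually (lt_mem_nhds (by rw [hvbd p0 hp0]; exact hφp0))
    have : (𝓝[Ω] p0).NeBot := mem_closure_iff_nhdsWithin_neBot.1 hp0c
    obtain ⟨y, hy1, hy2⟩ := (h2.and self_mem_nhdsWithin).exists
    exact ⟨y, hy2, hy1⟩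
  have hvpos : ∀ x ∈ Ω, 0 < v x := hharm.pos ho hc hb hγ₂ hvS hv0 hx1 hvx1
  -- the energies
  have hE1 : dirForm Ω g₁ A u u = dirForm Ω g₁ A u w₁ :=
    dirForm_eq_of_same_bdry ho hb hg₁ hA hu hu.1 hw₁.1 fun x hx => by
      rw [hu.2.1 x hx, hw₁.2.1 x hx]
  have hE2 : dirForm Ω g₂ (zeroConn n N) V w₂ = dirForm Ω g₂ (zeroConn n N) V (sect j v) :=
    dirForm_eq_of_same_bdry ho hb hg₂ isUnitaryConn_zero hV hw₂.1 (smoothUpTo_sect j hvS)
      fun x hx => by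
        rw [hw₂.2.1 x hx]
        funext i
        simp [sect, hvbd x hx]
  have hEn : ∫ x in Ω, Qc (cond g₁ x) (covD A u x) =
      ∫ x in Ω, qf (cond g₂ x) (grad v x) (grad v x) := by
    rw [← dirForm_self_re hb hg₁ hA hu.1, hE1, hE, hE2,
      dirForm_zero_sect_re ho hb hg₂ j hV.1 hvS]
  have hmono : ∫ x in Ω, Qc (cond g₂ x) (covD A u x) ≤ ∫ x in Ω, Qc (cond g₁ x) (covD A u x) :=
    setIntegral_mono_on
      (integrableOn_of_continuousOn_closure hb (continuousOn_Qc_covD hγ₂ hA hu.1))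
      (integrableOn_of_continuousOn_closure hb (continuousOn_Qc_covD hg₁.cond hA hu.1))
      ho.measurableSet fun x hx => Qc_mono (hord x hx) _
  have hnsq : ∀ x ∈ frontier Ω, nsq u x = v x ^ 2 := by
    intro x hx
    have : nsq u x = nsq (sect j φ) x := by simp only [nsq, hu.2.1 x hx]
    rw [this, nsq_sect, hvbd x hx]
  have hbound : ∀ ε : ℝ, 0 < ε → ∫ x in Ω, Qc (cond g₂ x) (rem A u v ε x) ≤
      ∫ x in Ω, (ε ^ 2 / (v x + ε) ^ 2) * qf (cond g₂ x) (grad v x) (grad v x) := by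
    intro ε hε
    rw [picone_integral ho hb hγ₂ hA hu.1 hvS hharm hv0' hnsq hε]
    linarith
  have hrem := rem_zero_of_bound ho hb hγ₂ hA hu.1 hvS hvpos hbound
  -- the parallel section
  refine ⟨fun y i => u y i * (((v y)⁻¹ : ℝ) : ℂ), fun i => ?_, fun x hx k i => ?_,
    fun p hp hφp i => ?_⟩
  · obtain ⟨O₁, _, hs₁, h₁⟩ := hu.1 i
    obtain ⟨O₂, _, hs₂, h₂⟩ := hvS
    have h3 : ContDiffOn ℝ ∞ (fun y => (v y)⁻¹) Ω :=
      (h₂.mono (subset_closure.trans hs₂)).inv fun x hx => ne_of_gt (hvpos x hx)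
    exact (h₁.mono (subset_closure.trans hs₁)).mul
      (Complex.ofRealCLM.contDiff.comp_contDiffOn h3)
  · have hvx := hvS.differentiableAt' hx
    have hvne : v x ≠ 0 := ne_of_gt (hvpos x hx)
    have hinv : DifferentiableAt ℝ (fun y => (v y)⁻¹) x := hvx.fun_inv hvne
    have hinvC : DifferentiableAt ℝ (fun y => (((v y)⁻¹ : ℝ) : ℂ)) x :=
      Complex.ofRealCLM.differentiableAt.comp x hinv
    rw [pd_mul ((hu.1 i).differentiableAt' hx) hinvC, pd_ofReal hinv, pd_inv hvx hvne]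
    have h1 := hrem x hx k i
    simp only [rem, covD, add_zero] at h1
    have h2 : pd k (fun y => u y i) x =
        ((pd k v x / v x : ℝ) : ℂ) * u x i - ∑ l, A x k i l * u x l := by
      linear_combination h1
    rw [h2]
    have hvC : ((v x : ℝ) : ℂ) ≠ 0 := Complex.ofReal_ne_zero.2 hvne
    simp only [← mul_assoc]
    push_cast
    rw [sub_mul, Finset.sum_mul]
    field_simp
    ring
  · have hpc : p ∈ closure Ω := frontier_subset_closure hp
    have hvp : v p = φ p := hvbd p hp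
    have h1 : Tendsto (fun y => u y i) (𝓝[Ω] p) (𝓝 (u p i)) :=
      ((hu.1 i).continuousOn p hpc).mono subset_closure
    have h2 : Tendsto v (𝓝[Ω] p) (𝓝 (v p)) := (hvS.continuousOn p hpc).mono subset_closure
    have h3 : Tendsto (fun y => (v y)⁻¹) (𝓝[Ω] p) (𝓝 (v p)⁻¹) :=
      h2.inv₀ (by rw [hvp]; exact ne_of_gt hφp)
    have h4 : Tendsto (fun y => (((v y)⁻¹ : ℝ) : ℂ)) (𝓝[Ω] p) (𝓝 (((v p)⁻¹ : ℝ) : ℂ)) :=
      (Complex.continuous_ofReal.tendsto _).comp h3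
    have h5 := h1.mul h4
    have h6 : u p i * (((v p)⁻¹ : ℝ) : ℂ) = if i = j then 1 else 0 := by
      rw [hu.2.1 p hp, hvp]
      simp only [sect]
      split_ifs
      · rw [← Complex.ofReal_mul, mul_inv_cancel₀ (ne_of_gt hφp)]
        simp
      · simp
    rw [h6] at h5
    exact h5

end Vale.Agent.Lib.P088
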