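import Vale.Agent.Lib.P088.Barrier

/-!
# P088: weak and strong maximum principle for weakly harmonic functions
-/

open scoped ContDiff ComplexConjugate Topology
open MeasureTheory

namespace Vale.Agent.Lib.P088

variable {n : ℕ}

/-- `v` is weakly harmonic for the coefficient matrix `γ` in `Ω`. -/
def WeakHarm (Ω : Set (Eu n)) (γ : Eu n → Matrix (Fin n) (Fin n) ℝ) (v : Eu n → ℝ) : Prop :=
  ∀ w : Eu n → ℝ, SmoothUpTo Ω w → (∀ x ∈ frontier Ω, w x = 0) →
    ∫ x in Ω, qf (γ x) (grad v x) (grad w x) = 0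

lemma nonneg_on_closure {Ω : Set (Eu n)} {v : Eu n → ℝ} (hv : ContinuousOn v (closure Ω))
    (h : ∀ x ∈ Ω, 0 ≤ v x) : ∀ x ∈ closure Ω, 0 ≤ v x := by
  intro p hp
  have h1 : Filter.Tendsto v (𝓝[Ω] p) (𝓝 (v p)) := (hv p hp).mono subset_closure
  have : (𝓝[Ω] p).NeBot := mem_closure_iff_nhdsWithin_neBot.1 hp
  refine ge_of_tendsto h1 ?_
  filter_upwards [self_mem_nhdsWithin] with x hx using h x hx

lemma WeakHarm.nonneg {Ω : Set (Eu n)} (ho : IsOpen Ω) (hc : IsPreconnected Ω)
    (hb : Bornology.IsBounded Ω) {γ : Eu n → Matrix (Fin n) (Fin n) ℝ} (hγ : IsSmoothMetric γ)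
    {v : Eu n → ℝ} (hv : SmoothUpTo Ω v) (hh : WeakHarm Ω γ v)
    (hbd : ∀ x ∈ frontier Ω, 0 ≤ v x) (hne : (frontier Ω).Nonempty) : ∀ x ∈ Ω, 0 ≤ v x := by
  obtain ⟨p, hp⟩ := hne
  refine comparison ho hc hb hγ hv (frontier_subset_closure hp) (hbd p hp) ?_
  rw [hh _ (hv.comp_contDiff cut_contDiff) fun x hx => cut_eq_zero_iff.2 (hbd x hx)]

lemma WeakHarm.pos_ball {Ω : Set (Eu n)} (ho : IsOpen Ω) (hc : IsPreconnected Ω)
    (hb : Bornology.IsBounded Ω) {γ : Eu n → Matrix (Fin n) (Fin n) ℝ} (hγ : IsSmoothMetric γ)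
    {v : Eu n → ℝ} (hv : SmoothUpTo Ω v) (hh : WeakHarm Ω γ v) (hv0 : ∀ x ∈ Ω, 0 ≤ v x)
    {x0 : Eu n} {ρ : ℝ} (hball : Metric.closedBall x0 ρ ⊆ Ω) (hx0 : 0 < v x0) :
    ∀ x ∈ Metric.ball x0 ρ, 0 < v x := by
  intro x hx
  have hρ : 0 < ρ := lt_of_le_of_lt dist_nonneg (Metric.mem_ball.1 hx)
  have hx0Ω : x0 ∈ Ω := hball (Metric.mem_closedBall_self hρ.le)
  set m : ℝ := v x0 / 2 with hm
  have hmpos : 0 < m := by positivity
  have hcont : ContinuousAt v x0 := (hv.differentiableAt' hx0Ω).continuousAt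
  obtain ⟨δ, hδ, hδv⟩ := Metric.continuousAt_iff.1 hcont m hmpos
  set ρ₁ : ℝ := min (δ / 2) (ρ / 2) with hρ₁
  have hρ₁pos : 0 < ρ₁ := lt_min (by positivity) (by positivity)
  have hρ₁ρ : ρ₁ < ρ := lt_of_le_of_lt (min_le_right _ _) (by linarith)
  have hρ₁δ : ρ₁ < δ := lt_of_le_of_lt (min_le_left _ _) (by linarith)
  have hinner : ∀ y, dist y x0 < ρ₁ → m ≤ v y := by
    intro y hy
    have := hδv (lt_trans hy hρ₁δ)
    rw [Real.dist_eq, abs_lt] at this
    have h2 : v x0 = 2 * m := by rw [hm]; ring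
    linarith [this.1]
  obtain ⟨h, hhs, hh1, hhpos, hhneg, hhint⟩ := exists_barrier hγ x0 hρ₁pos hρ₁ρ
  have hhS : SmoothUpTo Ω h := SmoothUpTo.of_contDiff hhs
  set w : Eu n → ℝ := fun y => v y - m * h y with hw
  have hwS : SmoothUpTo Ω w := hv.sub ((SmoothUpTo.const m).mul hhS)
  have hvcl : ∀ y ∈ closure Ω, 0 ≤ v y := nonneg_on_closure hv.continuousOn hv0
  -- `w ≥ 0` outside the open annulus
  have hwout : ∀ y ∈ closure Ω, y ∉ Metric.closedBall x0 ρ → 0 ≤ w y := by
    intro y hy hyb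
    have h1 : ρ ≤ dist y x0 := by
      rw [Metric.mem_closedBall, not_le] at hyb
      exact hyb.le
    have h2 := hhneg y h1
    have h3 := hvcl y hy
    simp only [hw]
    nlinarith
  have hwin : ∀ y, dist y x0 < ρ₁ → 0 ≤ w y := by
    intro y hy
    have h2 := hinner y hy
    have h3 := hh1 y
    simp only [hw]
    nlinarith
  have hwouter : ∀ y ∈ closure Ω, ρ ≤ dist y x0 → 0 ≤ w y := by
    intro y hy h1
    have h2 := hhneg y h1
    have h3 := hvcl y hy
    simp only [hw]
    nlinarith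
  have key : ∀ δ' : ℝ, 0 < δ' → ∀ y ∈ Ω, 0 ≤ w y + δ' := by
    intro δ' hδ'
    have hwδS : SmoothUpTo Ω (fun y => w y + δ') := hwS.add (SmoothUpTo.const δ')
    have hζS : SmoothUpTo Ω (fun y => cut (w y + δ')) := hwδS.comp_contDiff cut_contDiff
    refine comparison ho hc hb hγ hwδS (subset_closure hx0Ω) ?_ ?_
    · have := hwin x0 (by simpa using hρ₁pos)
      linarith
    · set ζ : Eu n → ℝ := fun y => cut (w y + δ') with hζ
      set K : Set (Eu n) := Metric.closedBall x0 ρ ∩ (fun y => w y + δ') ⁻¹' Set.Iic 0 with hK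
      have hKcl : IsClosed K :=
        (hwδS.continuousOn.mono (hball.trans subset_closure)).preimage_isClosed_of_isClosed
          Metric.isClosed_closedBall isClosed_Iic
      have hKc : IsCompact K :=
        (isCompact_closedBall x0 ρ).of_isClosed_subset hKcl Set.inter_subset_left
      have hKΩ : K ⊆ Ω := Set.inter_subset_left.trans hball
      have hKann : ∀ y ∈ K, ρ₁ ≤ dist y x0 ∧ dist y x0 ≤ ρ := by
        intro y hy
        refine ⟨?_, hy.1⟩
        by_contra hlt
        have h1 := hwin y (not_le.1 hlt)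
        have h2 : w y + δ' ≤ 0 := hy.2
        linarith
      have hζ0 : ∀ y ∈ Ω, y ∉ K → ζ y = 0 := by
        intro y hy hyK
        apply cut_eq_zero_iff.2
        by_cases hyb : y ∈ Metric.closedBall x0 ρ
        · have : ¬ (w y + δ' ≤ 0) := fun h => hyK ⟨hyb, h⟩
          exact (not_le.1 this).le
        · have := hwout y (subset_closure hy) hyb
          linarith
      have hζfr : ∀ y ∈ frontier Ω, ζ y = 0 := by
        intro y hy
        apply cut_eq_zero_iff.2
        have hyΩ : y ∉ Ω := by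
          have := ho.frontier_eq ▸ hy
          exact this.2
        have := hwout y (frontier_subset_closure hy) fun h => hyΩ (hball h)
        linarith
      have hI1 : ∫ y in Ω, qf (γ y) (grad v y) (grad ζ y) = 0 := hh ζ hζS hζfr
      have hI2 : ∫ y in Ω, qf (γ y) (grad ζ y) (grad h y) ≤ 0 :=
        hhint Ω K ζ ho hb hKc hKΩ hKann hζS hζ0 fun y _ => cut_nonneg _
      have hpt : ∀ y ∈ Ω, qf (γ y) (grad (fun z => w z + δ') y) (grad ζ y) =
          qf (γ y) (grad v y) (grad ζ y) - m * qf (γ y) (grad ζ y) (grad h y) := by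
        intro y hy
        have hg : grad (fun z => w z + δ') y = fun l => grad v y l - m * grad h y l := by
          funext l
          simp only [grad, hw]
          have d1 := hv.differentiableAt' hy
          have d2 := hhS.differentiableAt' hy
          rw [pd_add (d1.fun_sub ((differentiableAt_const m).fun_mul d2))
            (differentiableAt_const _), pd_const,
            pd_sub d1 ((differentiableAt_const m).fun_mul d2),
            pd_mul (differentiableAt_const m) d2, pd_const]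
          ring
        rw [hg, qf_sub_left, qf_smul_left, qf_comm (hγ.2 y).isHermitian (grad h y)]
      rw [setIntegral_congr_fun ho.measurableSet hpt, integral_sub, integral_const_mul, hI1]
      · nlinarith
      · exact integrableOn_of_continuousOn_closure hb (hv.continuousOn_qf_grad hγ hζS)
      · exact (integrableOn_of_continuousOn_closure hb
          (hζS.continuousOn_qf_grad hγ hhS)).const_mul m
  have hxΩ : x ∈ Ω := hball (Metric.ball_subset_closedBall hx)
  have hwx : 0 ≤ w x := by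
    by_contra hneg
    have h1 : 0 < - w x / 2 := by
      have := not_le.1 hneg
      linarith
    have := key _ h1 x hxΩ
    linarith
  have h5 := hhpos x (Metric.mem_ball.1 hx)
  simp only [hw] at hwx
  nlinarith

/-- **Strong positivity**: a nonnegative weakly harmonic function which is positive somewhere
is positive everywhere in the connected open set `Ω`. -/
lemma WeakHarm.pos {Ω : Set (Eu n)} (ho : IsOpen Ω) (hc : IsPreconnected Ω)
    (hb : Bornology.IsBounded Ω) {γ : Eu n → Matrix (Fin n) (Fin n) ℝ} (hγ : IsSmoothMetric γ)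
    {v : Eu n → ℝ} (hv : SmoothUpTo Ω v) (hh : WeakHarm Ω γ v) (hv0 : ∀ x ∈ Ω, 0 ≤ v x)
    {x1 : Eu n} (hx1 : x1 ∈ Ω) (hvx1 : 0 < v x1) : ∀ x ∈ Ω, 0 < v x := by
  by_contra hcon
  push Not at hcon
  obtain ⟨z, hzΩ, hz⟩ := hcon
  have hvc : ContinuousOn v Ω := hv.continuousOn.mono subset_closure
  set P : Set (Eu n) := Ω ∩ v ⁻¹' Set.Ioi 0 with hP
  have hPo : IsOpen P := hvc.isOpen_inter_preimage ho isOpen_Ioi
  set Zs : Set (Eu n) := {y | y ∈ Ω ∧ v y ≤ 0} with hZs
  have hZo : IsOpen Zs := by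
    rw [Metric.isOpen_iff]
    intro y hy
    obtain ⟨r, hr, hrΩ⟩ := Metric.isOpen_iff.1 ho y hy.1
    refine ⟨r / 3, by positivity, ?_⟩
    intro y' hy'
    have hy'd : dist y' y < r / 3 := Metric.mem_ball.1 hy'
    have hy'Ω : y' ∈ Ω := hrΩ (Metric.mem_ball.2 (by linarith))
    refine ⟨hy'Ω, ?_⟩
    by_contra hpos
    have hpos' : 0 < v y' := not_le.1 hpos
    have hsub : Metric.closedBall y' (r / 3) ⊆ Ω := by
      intro t ht
      apply hrΩ
      have h1 : dist t y' ≤ r / 3 := Metric.mem_closedBall.1 ht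
      have h2 := dist_triangle t y' y
      exact Metric.mem_ball.2 (by linarith)
    have := WeakHarm.pos_ball ho hc hb hγ hv hh hv0 hsub hpos' y
      (Metric.mem_ball.2 (by rw [dist_comm]; exact hy'd))
    linarith [hy.2]
  have hcover : Ω ⊆ P ∪ Zs := by
    intro y hy
    by_cases h : 0 < v y
    · exact Or.inl ⟨hy, h⟩
    · exact Or.inr ⟨hy, not_lt.1 h⟩
  obtain ⟨t, _, htP, htZ⟩ := hc P Zs hPo hZo hcover ⟨x1, hx1, hx1, hvx1⟩ ⟨z, hzΩ, hzΩ, hz⟩
  have h1 : 0 < v t := htP.2
  have h2 : v t ≤ 0 := htZ.2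
  linarith

end Vale.Agent.Lib.P088
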