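import Vale.Agent.Lib.P088.QForm
import Vale.Agent.Lib.P088.Positivity

/-!
# P088: the ground state (Picone) identity for unitary connections
-/

open scoped ContDiff ComplexConjugate Topology
open MeasureTheory

namespace Vale.Agent.Lib.P088

variable {n N : ℕ}

lemma pd_inv {g : Eu n → ℝ} {x : Eu n} (hg : DifferentiableAt ℝ g x) (h0 : g x ≠ 0)
    (k : Fin n) : pd k (fun y => (g y)⁻¹) x = - pd k g x / (g x) ^ 2 := by
  have h := pd_comp_real (Φ := fun t : ℝ => t⁻¹) (differentiableAt_inv h0) hg k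
  rw [h, deriv_inv]
  ring

lemma pd_div {f g : Eu n → ℝ} {x : Eu n} (hf : DifferentiableAt ℝ f x)
    (hg : DifferentiableAt ℝ g x) (h0 : g x ≠ 0) (k : Fin n) :
    pd k (fun y => f y / g y) x = pd k f x / g x - f x * pd k g x / (g x) ^ 2 := by
  simp only [div_eq_mul_inv]
  rw [pd_mul hf (hg.fun_inv h0), pd_inv hg h0]
  ring

/-- `|u|²` -/
noncomputable def nsq (u : Eu n → Fin N → ℂ) (x : Eu n) : ℝ := ∑ i, Complex.normSq (u x i)

lemma nsq_eq (u : Eu n → Fin N → ℂ) :
    nsq u = fun y => ∑ i, ((u y i).re * (u y i).re + (u y i).im * (u y i).im) := by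
  funext y
  simp only [nsq, Complex.normSq_apply]

lemma smoothUpTo_nsq {Ω : Set (Eu n)} {u : Eu n → Fin N → ℂ}
    (hu : ∀ i, SmoothUpTo Ω fun y => u y i) : SmoothUpTo Ω (nsq u) := by
  rw [nsq_eq]
  exact SmoothUpTo.sum _ fun i _ => ((hu i).re.mul (hu i).re).add ((hu i).im.mul (hu i).im)

lemma skew_re_zero {B : Matrix (Fin N) (Fin N) ℂ} (hB : B.conjTranspose = -B) (u : Fin N → ℂ) :
    (∑ i, conj (u i) * ∑ j, B i j * u j).re = 0 := by
  set z : ℂ := ∑ i, conj (u i) * ∑ j, B i j * u j with hz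
  have hB' : ∀ i j, conj (B i j) = - B j i := by
    intro i j
    have := congrFun (congrFun hB j) i
    simpa [Matrix.conjTranspose_apply] using this
  have hconj : conj z = - z := by
    simp only [hz, map_sum, map_mul, Complex.conj_conj, hB', Finset.mul_sum]
    rw [Finset.sum_comm, ← Finset.sum_neg_distrib]
    refine Finset.sum_congr rfl fun i _ => ?_
    rw [← Finset.sum_neg_distrib]
    refine Finset.sum_congr rfl fun j _ => ?_
    ring
  have := congrArg Complex.re hconj
  simp only [Complex.conj_re, Complex.neg_re] at this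
  linarith

lemma pd_nsq {A : Eu n → Fin n → Matrix (Fin N) (Fin N) ℂ} (hA : IsUnitaryConn A)
    {u : Eu n → Fin N → ℂ} {x : Eu n} (hu : ∀ i, DifferentiableAt ℝ (fun y => u y i) x)
    (k : Fin n) : pd k (nsq u) x = muv (covD A u x) (u x) k := by
  have hre : ∀ i, DifferentiableAt ℝ (fun y => (u y i).re) x := fun i =>
    Complex.reCLM.differentiableAt.comp x (hu i)
  have him : ∀ i, DifferentiableAt ℝ (fun y => (u y i).im) x := fun i =>
    Complex.imCLM.differentiableAt.comp x (hu i)
  rw [nsq_eq, pd_sum _ fun i _ => ((hre i).fun_mul (hre i)).fun_add ((him i).fun_mul (him i))]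
  have h1 : ∀ i ∈ Finset.univ,
      pd k (fun y => (u y i).re * (u y i).re + (u y i).im * (u y i).im) x =
        2 * (conj (u x i) * pd k (fun y => u y i) x).re := by
    intro i _
    rw [pd_add ((hre i).fun_mul (hre i)) ((him i).fun_mul (him i)), pd_mul (hre i) (hre i),
      pd_mul (him i) (him i), pd_re (hu i), pd_im (hu i)]
    simp only [Complex.mul_re, Complex.conj_re, Complex.conj_im]
    ring
  rw [Finset.sum_congr rfl h1]
  have h2 := skew_re_zero (hA.2 x k) (u x)
  simp only [muv, covD, mul_add, Complex.add_re, Finset.sum_add_distrib, ← Finset.mul_sum]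
  rw [Complex.re_sum] at h2
  rw [h2]
  ring

/-- The remainder `d_A u - u dv / (v + ε)`. -/
noncomputable def rem (A : Eu n → Fin n → Matrix (Fin N) (Fin N) ℂ) (u : Eu n → Fin N → ℂ)
    (v : Eu n → ℝ) (ε : ℝ) (x : Eu n) (k : Fin n) (i : Fin N) : ℂ :=
  covD A u x k i - ((pd k v x / (v x + ε) : ℝ) : ℂ) * u x i

lemma picone_pointwise {γ : Eu n → Matrix (Fin n) (Fin n) ℝ} (hγ : IsSmoothMetric γ)
    {A : Eu n → Fin n → Matrix (Fin N) (Fin N) ℂ} (hA : IsUnitaryConn A)
    {u : Eu n → Fin N → ℂ} {v : Eu n → ℝ} {x : Eu n}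
    (hu : ∀ i, DifferentiableAt ℝ (fun y => u y i) x) (hv : DifferentiableAt ℝ v x) {ε : ℝ}
    (hκ : 0 < v x + ε) :
    Qc (γ x) (rem A u v ε x) = Qc (γ x) (covD A u x) -
      qf (γ x) (grad v x) (grad (fun y => nsq u y / (v y + ε)) x) := by
  have hn : DifferentiableAt ℝ (nsq u) x := by
    rw [nsq_eq]
    refine DifferentiableAt.fun_sum fun i _ => ?_
    have hre : DifferentiableAt ℝ (fun y => (u y i).re) x :=
      Complex.reCLM.differentiableAt.comp x (hu i)
    have him : DifferentiableAt ℝ (fun y => (u y i).im) x :=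
      Complex.imCLM.differentiableAt.comp x (hu i)
    exact (hre.fun_mul hre).fun_add (him.fun_mul him)
  have hvε : DifferentiableAt ℝ (fun y => v y + ε) x := hv.fun_add (differentiableAt_const _)
  have hg : grad (fun y => nsq u y / (v y + ε)) x = fun l =>
      (1 / (v x + ε)) * muv (covD A u x) (u x) l - (nsq u x / (v x + ε) ^ 2) * grad v x l := by
    funext l
    simp only [grad]
    rw [pd_div hn hvε (ne_of_gt hκ), pd_nsq hA hu, pd_add hv (differentiableAt_const _),
      pd_const]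
    ring
  have hβ : (fun k => pd k v x / (v x + ε)) = fun k => (1 / (v x + ε)) * grad v x k := by
    funext k
    simp only [grad]
    ring
  have h1 := Qc_sub_smul (hγ.2 x).isHermitian (covD A u x) (fun k => pd k v x / (v x + ε)) (u x)
  have h2 : rem A u v ε x = fun k i =>
      covD A u x k i - ((pd k v x / (v x + ε) : ℝ) : ℂ) * u x i := rfl
  rw [h2, h1, hg, hβ, qf_sub_right, qf_smul_right, qf_smul_right, qf_smul_left, qf_smul_left,
    qf_smul_right]
  simp only [nsq]
  field_simp
  ring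

lemma continuousOn_covD {Ω : Set (Eu n)} {A : Eu n → Fin n → Matrix (Fin N) (Fin N) ℂ}
    (hA : IsUnitaryConn A) {u : Eu n → Fin N → ℂ} (hu : ∀ i, SmoothUpTo Ω fun y => u y i)
    (k : Fin n) (i : Fin N) : ContinuousOn (fun x => covD A u x k i) (closure Ω) := by
  simp only [covD]
  refine ((hu i).continuousOn_pd k).add ?_
  exact continuousOn_finsetSum _ fun j _ =>
    (hA.1 k i j).continuous.continuousOn.mul (hu j).continuousOn

lemma continuousOn_Qc_covD {Ω : Set (Eu n)} {γ : Eu n → Matrix (Fin n) (Fin n) ℝ}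
    (hγ : IsSmoothMetric γ) {A : Eu n → Fin n → Matrix (Fin N) (Fin N) ℂ}
    (hA : IsUnitaryConn A) {u : Eu n → Fin N → ℂ} (hu : ∀ i, SmoothUpTo Ω fun y => u y i) :
    ContinuousOn (fun x => Qc (γ x) (covD A u x)) (closure Ω) :=
  continuousOn_Qc (hγ.continuousOn _) (continuousOn_covD hA hu)

lemma picone_integral {Ω : Set (Eu n)} (ho : IsOpen Ω) (hb : Bornology.IsBounded Ω)
    {γ : Eu n → Matrix (Fin n) (Fin n) ℝ} (hγ : IsSmoothMetric γ)
    {A : Eu n → Fin n → Matrix (Fin N) (Fin N) ℂ} (hA : IsUnitaryConn A)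
    {u : Eu n → Fin N → ℂ} (hu : ∀ i, SmoothUpTo Ω fun y => u y i)
    {v : Eu n → ℝ} (hv : SmoothUpTo Ω v) (hh : WeakHarm Ω γ v)
    (hv0 : ∀ x ∈ closure Ω, 0 ≤ v x) (hbd : ∀ x ∈ frontier Ω, nsq u x = v x ^ 2)
    {ε : ℝ} (hε : 0 < ε) :
    ∫ x in Ω, Qc (γ x) (rem A u v ε x) =
      (∫ x in Ω, Qc (γ x) (covD A u x)) - (∫ x in Ω, qf (γ x) (grad v x) (grad v x)) +
        ∫ x in Ω, (ε ^ 2 / (v x + ε) ^ 2) * qf (γ x) (grad v x) (grad v x) := by
  have hκS : SmoothUpTo Ω (fun y => v y + ε) := hv.add (SmoothUpTo.const ε)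
  have hκpos : ∀ x ∈ closure Ω, 0 < v x + ε := fun x hx => by
    have := hv0 x hx
    linarith
  have hψ₁ : SmoothUpTo Ω (fun y => nsq u y / (v y + ε)) :=
    (smoothUpTo_nsq hu).div_pos hκS hκpos
  have hψ₂ : SmoothUpTo Ω (fun y => v y * v y / (v y + ε)) := (hv.mul hv).div_pos hκS hκpos
  have hG : ContinuousOn (fun x => qf (γ x) (grad v x) (grad v x)) (closure Ω) :=
    hv.continuousOn_qf_grad hγ hv
  have hI₁ := integrableOn_of_continuousOn_closure hb (hv.continuousOn_qf_grad hγ hψ₁)
  have hI₂ := integrableOn_of_continuousOn_closure hb (hv.continuousOn_qf_grad hγ hψ₂)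
  have hIG := integrableOn_of_continuousOn_closure hb hG
  have hIQ := integrableOn_of_continuousOn_closure hb (continuousOn_Qc_covD hγ hA hu)
  have hfac : ContinuousOn (fun x => ε ^ 2 / (v x + ε) ^ 2) (closure Ω) :=
    continuousOn_const.div (hκS.continuousOn.pow 2) fun x hx => by
      have := hκpos x hx
      positivity
  have hIF : IntegrableOn
      (fun x => (ε ^ 2 / (v x + ε) ^ 2) * qf (γ x) (grad v x) (grad v x)) Ω :=
    integrableOn_of_continuousOn_closure hb (hfac.mul hG)
  -- the weak equation tested with `ψ₁ - ψ₂`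
  have e1 : ∫ x in Ω, qf (γ x) (grad v x) (grad (fun y => nsq u y / (v y + ε)) x) =
      ∫ x in Ω, qf (γ x) (grad v x) (grad (fun y => v y * v y / (v y + ε)) x) := by
    have h0 := hh _ (hψ₁.sub hψ₂) (by
      intro x hx
      rw [hbd x hx]
      ring)
    have hpt : ∀ x ∈ Ω, qf (γ x) (grad v x)
        (grad (fun y => nsq u y / (v y + ε) - v y * v y / (v y + ε)) x) =
        qf (γ x) (grad v x) (grad (fun y => nsq u y / (v y + ε)) x) -
          qf (γ x) (grad v x) (grad (fun y => v y * v y / (v y + ε)) x) := by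
      intro x hx
      rw [← qf_sub_right]
      congr 1
      funext l
      exact pd_sub (hψ₁.differentiableAt' hx) (hψ₂.differentiableAt' hx) l
    rw [setIntegral_congr_fun ho.measurableSet hpt, integral_sub hI₁ hI₂] at h0
    linarith
  have e2 : ∫ x in Ω, qf (γ x) (grad v x) (grad (fun y => v y * v y / (v y + ε)) x) =
      (∫ x in Ω, qf (γ x) (grad v x) (grad v x)) -
        ∫ x in Ω, (ε ^ 2 / (v x + ε) ^ 2) * qf (γ x) (grad v x) (grad v x) := by
    rw [← integral_sub hIG hIF]
    refine setIntegral_congr_fun ho.measurableSet fun x hx => ?_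
    have hvx := hv.differentiableAt' hx
    have hκx := hκpos x (subset_closure hx)
    have hg : grad (fun y => v y * v y / (v y + ε)) x = fun l =>
        (1 - ε ^ 2 / (v x + ε) ^ 2) * grad v x l := by
      funext l
      simp only [grad]
      rw [pd_div (hvx.fun_mul hvx) (hvx.fun_add (differentiableAt_const _)) (ne_of_gt hκx),
        pd_mul hvx hvx, pd_add hvx (differentiableAt_const _), pd_const]
      field_simp
      ring
    simp only [hg, qf_smul_right]
    ring
  have e3 : ∫ x in Ω, Qc (γ x) (rem A u v ε x) = (∫ x in Ω, Qc (γ x) (covD A u x)) -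
      ∫ x in Ω, qf (γ x) (grad v x) (grad (fun y => nsq u y / (v y + ε)) x) := by
    rw [← integral_sub hIQ hI₁]
    refine setIntegral_congr_fun ho.measurableSet fun x hx => ?_
    exact picone_pointwise hγ hA (fun i => (hu i).differentiableAt' hx)
      (hv.differentiableAt' hx) (hκpos x (subset_closure hx))
  rw [e3, e1, e2]
  ring

end Vale.Agent.Lib.P088
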