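import Vale.Agent.Lib.P088.Quad

/-!
# P088: the real quadratic form on `ℂ^N`-valued one-forms
-/

open scoped ContDiff ComplexConjugate Topology
open MeasureTheory

namespace Vale.Agent.Lib.P088

variable {n N : ℕ}

/-- `∑ M_{kl} Re ⟨c_k, c_l⟩`. -/
noncomputable def Qc (M : Matrix (Fin n) (Fin n) ℝ) (c : Fin n → Fin N → ℂ) : ℝ :=
  ∑ k, ∑ l, M k l * ∑ i, (c k i * conj (c l i)).re

lemma Qc_eq_sum_qf (M : Matrix (Fin n) (Fin n) ℝ) (c : Fin n → Fin N → ℂ) :
    Qc M c = ∑ i, (qf M (fun k => (c k i).re) (fun k => (c k i).re) +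
      qf M (fun k => (c k i).im) (fun k => (c k i).im)) := by
  simp only [Qc, qf, Finset.mul_sum]
  rw [Finset.sum_congr rfl fun k _ => Finset.sum_comm]
  rw [Finset.sum_comm]
  refine Finset.sum_congr rfl fun i _ => ?_
  rw [← Finset.sum_add_distrib]
  refine Finset.sum_congr rfl fun k _ => ?_
  rw [← Finset.sum_add_distrib]
  refine Finset.sum_congr rfl fun l _ => ?_
  simp only [Complex.mul_re, Complex.conj_re, Complex.conj_im]
  ring

lemma Qc_nonneg {M : Matrix (Fin n) (Fin n) ℝ} (hM : M.PosSemidef) (c : Fin n → Fin N → ℂ) :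
    0 ≤ Qc M c := by
  rw [Qc_eq_sum_qf]
  exact Finset.sum_nonneg fun i _ => add_nonneg (qf_nonneg hM _) (qf_nonneg hM _)

lemma Qc_eq_zero {M : Matrix (Fin n) (Fin n) ℝ} (hM : M.PosDef) {c : Fin n → Fin N → ℂ}
    (h : Qc M c = 0) : ∀ k i, c k i = 0 := by
  rw [Qc_eq_sum_qf] at h
  have hnn : ∀ i ∈ Finset.univ, 0 ≤ (qf M (fun k => (c k i).re) (fun k => (c k i).re) +
      qf M (fun k => (c k i).im) (fun k => (c k i).im)) := fun i _ =>
    add_nonneg (qf_nonneg hM.posSemidef _) (qf_nonneg hM.posSemidef _)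
  intro k i
  have h1 := (Finset.sum_eq_zero_iff_of_nonneg hnn).1 h i (Finset.mem_univ i)
  have h2 := qf_nonneg hM.posSemidef (fun k => (c k i).re)
  have h3 := qf_nonneg hM.posSemidef (fun k => (c k i).im)
  have h4 : qf M (fun k => (c k i).re) (fun k => (c k i).re) = 0 := by linarith
  have h5 : qf M (fun k => (c k i).im) (fun k => (c k i).im) = 0 := by linarith
  apply Complex.ext
  · exact congrFun (qf_eq_zero hM h4) k
  · exact congrFun (qf_eq_zero hM h5) k

lemma Qc_sub_matrix (M M' : Matrix (Fin n) (Fin n) ℝ) (c : Fin n → Fin N → ℂ) :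
    Qc (M - M') c = Qc M c - Qc M' c := by
  simp only [Qc, Matrix.sub_apply, sub_mul, Finset.sum_sub_distrib]

lemma Qc_mono {M M' : Matrix (Fin n) (Fin n) ℝ} (h : (M - M').PosSemidef)
    (c : Fin n → Fin N → ℂ) : Qc M' c ≤ Qc M c := by
  have := Qc_nonneg h c
  rw [Qc_sub_matrix] at this
  linarith

/-- `2 Re ⟨a_k, u⟩`. -/
noncomputable def muv (a : Fin n → Fin N → ℂ) (u : Fin N → ℂ) (k : Fin n) : ℝ :=
  2 * ∑ i, (conj (u i) * a k i).re

/-- Completing the square. -/
lemma Qc_sub_smul {M : Matrix (Fin n) (Fin n) ℝ} (hM : M.IsHermitian) (a : Fin n → Fin N → ℂ)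
    (β : Fin n → ℝ) (u : Fin N → ℂ) :
    Qc M (fun k i => a k i - ((β k : ℝ) : ℂ) * u i) =
      Qc M a - qf M β (muv a u) + (∑ i, Complex.normSq (u i)) * qf M β β := by
  have h1 : Qc M (fun k i => a k i - ((β k : ℝ) : ℂ) * u i) =
      Qc M a - (1 / 2) * (qf M (muv a u) β + qf M β (muv a u)) +
        (∑ i, Complex.normSq (u i)) * qf M β β := by
    simp only [Qc, qf, Finset.mul_sum, ← Finset.sum_add_distrib, ← Finset.sum_sub_distrib]
    refine Finset.sum_congr rfl fun k _ => Finset.sum_congr rfl fun l _ => ?_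
    simp only [muv, Finset.mul_sum, Finset.sum_mul, ← Finset.sum_add_distrib,
      ← Finset.sum_sub_distrib]
    refine Finset.sum_congr rfl fun i _ => ?_
    simp only [Complex.mul_re, Complex.conj_re, Complex.conj_im, Complex.sub_re, Complex.sub_im,
      Complex.mul_im, Complex.ofReal_re, Complex.ofReal_im, Complex.normSq_apply, map_sub,
      map_mul, Complex.conj_ofReal]
    ring
  rw [h1, qf_comm hM (muv a u) β]
  ring

lemma continuousWithinAt_Qc {X : Type*} [TopologicalSpace X] {s : Set X} {p0 : X}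
    {M : X → Matrix (Fin n) (Fin n) ℝ} {c : X → Fin n → Fin N → ℂ}
    (hM : ∀ k l, ContinuousWithinAt (fun p => M p k l) s p0)
    (hc : ∀ k i, ContinuousWithinAt (fun p => c p k i) s p0) :
    ContinuousWithinAt (fun p => Qc (M p) (c p)) s p0 := by
  simp only [Qc]
  refine tendsto_finsetSum _ fun k _ => tendsto_finsetSum _ fun l _ => ?_
  refine (hM k l).mul ?_
  refine tendsto_finsetSum _ fun i _ => ?_
  have h1 : ContinuousWithinAt (fun p => c p k i * conj (c p l i)) s p0 :=
    (hc k i).mul (Complex.continuous_conj.continuousAt.comp_continuousWithinAt (hc l i))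
  exact Complex.continuous_re.continuousAt.comp_continuousWithinAt h1

lemma continuousOn_Qc {X : Type*} [TopologicalSpace X] {s : Set X}
    {M : X → Matrix (Fin n) (Fin n) ℝ} {c : X → Fin n → Fin N → ℂ}
    (hM : ∀ k l, ContinuousOn (fun p => M p k l) s)
    (hc : ∀ k i, ContinuousOn (fun p => c p k i) s) :
    ContinuousOn (fun p => Qc (M p) (c p)) s := fun p hp =>
  continuousWithinAt_Qc (fun k l => hM k l p hp) (fun k i => hc k i p hp)

end Vale.Agent.Lib.P088
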