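import Vale.Agent.Lib.P088.Basic

/-!
# P088: the bilinear form of a matrix field, and the coefficient matrix of a metric
-/

open scoped ContDiff ComplexConjugate Topology
open MeasureTheory

namespace Vale.Agent.Lib.P088

variable {n : ℕ}

/-- The bilinear form `∑ M_{kl} a_k b_l`. -/
def qf (M : Matrix (Fin n) (Fin n) ℝ) (a b : Fin n → ℝ) : ℝ := ∑ k, ∑ l, M k l * a k * b l

/-- The vector of coordinate derivatives. -/
noncomputable def grad (f : Eu n → ℝ) (x : Eu n) : Fin n → ℝ := fun k => pd k f x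

lemma qf_eq_dotProduct (M : Matrix (Fin n) (Fin n) ℝ) (a b : Fin n → ℝ) :
    qf M a b = a ⬝ᵥ M.mulVec b := by
  simp only [qf, dotProduct, Matrix.mulVec, Finset.mul_sum]
  refine Finset.sum_congr rfl fun k _ => Finset.sum_congr rfl fun l _ => ?_
  ring

lemma qf_add_right (M : Matrix (Fin n) (Fin n) ℝ) (a b c : Fin n → ℝ) :
    qf M a (fun l => b l + c l) = qf M a b + qf M a c := by
  simp only [qf, mul_add, Finset.sum_add_distrib]

lemma qf_sub_right (M : Matrix (Fin n) (Fin n) ℝ) (a b c : Fin n → ℝ) :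
    qf M a (fun l => b l - c l) = qf M a b - qf M a c := by
  simp only [qf, mul_sub, Finset.sum_sub_distrib]

lemma qf_smul_right (M : Matrix (Fin n) (Fin n) ℝ) (a b : Fin n → ℝ) (c : ℝ) :
    qf M a (fun l => c * b l) = c * qf M a b := by
  simp only [qf, Finset.mul_sum]
  refine Finset.sum_congr rfl fun k _ => Finset.sum_congr rfl fun l _ => ?_
  ring

lemma qf_add_left (M : Matrix (Fin n) (Fin n) ℝ) (a b c : Fin n → ℝ) :
    qf M (fun l => a l + b l) c = qf M a c + qf M b c := by
  simp only [qf, mul_add, add_mul, Finset.sum_add_distrib]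

lemma qf_sub_left (M : Matrix (Fin n) (Fin n) ℝ) (a b c : Fin n → ℝ) :
    qf M (fun l => a l - b l) c = qf M a c - qf M b c := by
  simp only [qf, mul_sub, sub_mul, Finset.sum_sub_distrib]

lemma qf_smul_left (M : Matrix (Fin n) (Fin n) ℝ) (a b : Fin n → ℝ) (c : ℝ) :
    qf M (fun l => c * a l) b = c * qf M a b := by
  simp only [qf, Finset.mul_sum]
  refine Finset.sum_congr rfl fun k _ => Finset.sum_congr rfl fun l _ => ?_
  ring

lemma qf_zero_right (M : Matrix (Fin n) (Fin n) ℝ) (a : Fin n → ℝ) :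
    qf M a (fun _ => 0) = 0 := by
  simp [qf]

lemma qf_comm {M : Matrix (Fin n) (Fin n) ℝ} (hM : M.IsHermitian) (a b : Fin n → ℝ) :
    qf M a b = qf M b a := by
  simp only [qf]
  rw [Finset.sum_comm]
  refine Finset.sum_congr rfl fun k _ => Finset.sum_congr rfl fun l _ => ?_
  have h : M l k = M k l := by
    have := hM.apply k l
    simpa using this
  rw [h]; ring

lemma qf_pos {M : Matrix (Fin n) (Fin n) ℝ} (hM : M.PosDef) {a : Fin n → ℝ} (ha : a ≠ 0) :
    0 < qf M a a := by
  rw [qf_eq_dotProduct]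
  have := hM.dotProduct_mulVec_pos ha
  simpa using this

lemma qf_nonneg {M : Matrix (Fin n) (Fin n) ℝ} (hM : M.PosSemidef) (a : Fin n → ℝ) :
    0 ≤ qf M a a := by
  rw [qf_eq_dotProduct]
  have := hM.dotProduct_mulVec_nonneg a
  simpa using this

lemma qf_eq_zero {M : Matrix (Fin n) (Fin n) ℝ} (hM : M.PosDef) {a : Fin n → ℝ}
    (h : qf M a a = 0) : a = 0 := by
  by_contra ha
  exact (ne_of_gt (qf_pos hM ha)) h

lemma qf_sub_matrix (M M' : Matrix (Fin n) (Fin n) ℝ) (a b : Fin n → ℝ) :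
    qf (M - M') a b = qf M a b - qf M' a b := by
  simp only [qf, Matrix.sub_apply, sub_mul, Finset.sum_sub_distrib]

/-! ### smoothness of determinants and inverses -/

lemma contDiff_det {m : ℕ} {g : Eu n → Matrix (Fin m) (Fin m) ℝ}
    (hg : ∀ k l, ContDiff ℝ ∞ fun x => g x k l) : ContDiff ℝ ∞ fun x => (g x).det := by
  simp only [Matrix.det_apply]
  refine ContDiff.sum fun σ _ => ?_
  refine ContDiff.const_smul _ ?_
  exact contDiff_prod fun i _ => hg _ _

lemma contDiff_adjugate {m : ℕ} {g : Eu n → Matrix (Fin m) (Fin m) ℝ}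
    (hg : ∀ k l, ContDiff ℝ ∞ fun x => g x k l) (i j : Fin m) :
    ContDiff ℝ ∞ fun x => (g x).adjugate i j := by
  simp only [Matrix.adjugate_apply]
  refine contDiff_det fun k l => ?_
  simp only [Matrix.updateRow_apply]
  split_ifs
  · exact contDiff_const
  · exact hg k l

lemma IsSmoothMetric.cond {g : Eu n → Matrix (Fin n) (Fin n) ℝ} (hg : IsSmoothMetric g) :
    IsSmoothMetric (cond g) := by
  obtain ⟨hs, hp⟩ := hg
  have hdet : ∀ x, 0 < (g x).det := fun x => (hp x).det_pos
  refine ⟨fun k l => ?_, fun x => ?_⟩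
  · have h1 : ContDiff ℝ ∞ fun x => Real.sqrt (g x).det :=
      (contDiff_det hs).sqrt fun x => ne_of_gt (hdet x)
    have h2 : ContDiff ℝ ∞ fun x => ((g x).det)⁻¹ :=
      (contDiff_det hs).inv fun x => ne_of_gt (hdet x)
    have h3 : (fun x => Vale.Agent.Lib.P088.cond g x k l) =
        fun x => Real.sqrt (g x).det * (((g x).det)⁻¹ * (g x).adjugate k l) := by
      funext x
      simp [Vale.Agent.Lib.P088.cond, Matrix.inv_def, Ring.inverse_eq_inv']
    rw [h3]
    exact h1.mul (h2.mul (contDiff_adjugate hs k l))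
  · exact (hp x).inv.smul (Real.sqrt_pos.2 (hdet x))

end Vale.Agent.Lib.P088
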