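import Vale.Agent.Lib.P088.Frame

/-!
# P088: rigidity of the trivial connection from data on one boundary patch
-/

open scoped ContDiff ComplexConjugate Topology
open MeasureTheory Filter

namespace Vale.Agent.Lib.P088

variable {n N : ℕ}

theorem rigidity (Ω Γ : Set (Eu n)) (ho : IsOpen Ω) (hc : IsConnected Ω)
    (hb : Bornology.IsBounded Ω) (hΓ : ∃ O : Set (Eu n), IsOpen O ∧ Γ = O ∩ frontier Ω)
    (hΓne : Γ.Nonempty) (g₁ g₂ : Eu n → Matrix (Fin n) (Fin n) ℝ)
    (hg₁ : IsSmoothMetric g₁) (hg₂ : IsSmoothMetric g₂)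
    (hord : ∀ x ∈ Ω, (cond g₁ x - cond g₂ x).PosSemidef)
    (A : Eu n → Fin n → Matrix (Fin N) (Fin N) ℂ) (hA : IsUnitaryConn A)
    (hdata : SameData Ω Γ g₁ A g₂ (fun _ _ => 0)) :
    ∃ U : Eu n → Matrix (Fin N) (Fin N) ℂ,
      (∀ i j, ContDiffOn ℝ ∞ (fun x => U x i j) Ω) ∧
      (∀ i j, ContinuousOn (fun x => U x i j) (Ω ∪ Γ)) ∧
      (∀ x, U x ∈ Matrix.unitaryGroup (Fin N) ℂ) ∧
      (∀ x ∈ Γ, U x = 1) ∧
      ∀ x ∈ Ω, ∀ k, A x k = (U x)⁻¹ * Matrix.of (fun i j => pd k (fun y => U y i j) x) := by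
  classical
  have hdata' : SameData Ω Γ g₁ A g₂ (zeroConn n N) := hdata
  have hpc : IsPreconnected Ω := hc.isPreconnected
  have hΓfr : Γ ⊆ frontier Ω := by
    obtain ⟨O, _, rfl⟩ := hΓ
    exact Set.inter_subset_right
  have hΓΩ : ∀ x ∈ Γ, x ∉ Ω := by
    intro x hx hxΩ
    have := hΓfr hx
    rw [ho.frontier_eq] at this
    exact this.2 hxΩ
  obtain ⟨p0, hp0⟩ := hΓne
  have hp0c : p0 ∈ closure Ω := frontier_subset_closure (hΓfr hp0)
  obtain ⟨φ0, hφ0s, hφ0n, hφ0p, hφ0Γ⟩ := exists_bump hΓ hp0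
  have key : ∀ j : Fin N, ∃ s : Eu n → Fin N → ℂ,
      (∀ i, ContDiffOn ℝ ∞ (fun y => s y i) Ω) ∧
      (∀ x ∈ Ω, ∀ k i, pd k (fun y => s y i) x = - ∑ l, A x k i l * s x l) ∧
      (∀ p ∈ frontier Ω, 0 < φ0 p → ∀ i,
        Tendsto (fun y => s y i) (𝓝[Ω] p) (𝓝 (if i = j then 1 else 0))) := fun j =>
    exists_parallel ho hpc hb hg₁ hg₂ hord hA hdata' hφ0s (fun x _ => hφ0n x) hφ0Γ (hΓfr hp0)
      hφ0p j
  choose s hs1 hs2 hs3 using key
  have hpar : ∀ j, IsParallel Ω A (s j) := fun j =>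
    ⟨fun x hx i => ((hs1 j i).differentiableOn (by simp)).differentiableAt (ho.mem_nhds hx),
      hs2 j⟩
  -- the frame tends to the standard frame at every point of `Γ`
  have hlim : ∀ p ∈ Γ, ∀ j i, Tendsto (fun y => s j y i) (𝓝[Ω] p) (𝓝 (if i = j then 1 else 0)) := by
    intro p hp j i
    obtain ⟨φp, hφps, hφpn, hφpp, hφpΓ⟩ := exists_bump hΓ hp
    have hsupp : closure {x | x ∈ frontier Ω ∧ φ0 x + φp x ≠ 0} ⊆ Γ := by
      have hsub : {x | x ∈ frontier Ω ∧ φ0 x + φp x ≠ 0} ⊆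
          {x | x ∈ frontier Ω ∧ φ0 x ≠ 0} ∪ {x | x ∈ frontier Ω ∧ φp x ≠ 0} := by
        rintro x ⟨hx, hne⟩
        by_cases h0 : φ0 x = 0
        · refine Or.inr ⟨hx, fun h1 => hne ?_⟩
          rw [h0, h1, add_zero]
        · exact Or.inl ⟨hx, h0⟩
      refine (closure_mono hsub).trans ?_
      rw [closure_union]
      exact Set.union_subset hφ0Γ hφpΓ
    obtain ⟨s', h1, h2, h3⟩ := exists_parallel ho hpc hb hg₁ hg₂ hord hA hdata'
      (hφ0s.add hφps) (fun x _ => add_nonneg (hφ0n x) (hφpn x)) hsupp (hΓfr hp0)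
      (add_pos_of_pos_of_nonneg hφ0p (hφpn p0)) j
    have hpar' : IsParallel Ω A s' :=
      ⟨fun x hx i => ((h1 i).differentiableOn (by simp)).differentiableAt (ho.mem_nhds hx), h2⟩
    have heq : ∀ x ∈ Ω, s' x i = s j x i := fun x hx =>
      hpar'.eq_of_tendsto ho hpc hA (hpar j) hp0c
        (h3 p0 (hΓfr hp0) (add_pos_of_pos_of_nonneg hφ0p (hφpn p0)))
        (hs3 j p0 (hΓfr hp0) hφ0p) hx i
    refine (h3 p (hΓfr hp) (add_pos_of_nonneg_of_pos (hφ0n p) hφpp) i).congr' ?_
    filter_upwards [self_mem_nhdsWithin] with y hy using heq y hy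
  set S : Eu n → Matrix (Fin N) (Fin N) ℂ := fun x => Matrix.of fun i j => s j x i with hS
  have hon : ∀ x ∈ Ω, (S x).conjTranspose * S x = 1 := by
    intro x hx
    ext j j'
    simp only [Matrix.mul_apply, Matrix.conjTranspose_apply, hS, Matrix.of_apply,
      Complex.star_def]
    rw [(hpar j).inner_eq_of_tendsto ho hpc hA (hpar j') hp0c (hlim p0 hp0 j) (hlim p0 hp0 j') hx]
    simp [Matrix.one_apply, eq_comm]
  refine ⟨fun x => if x ∈ Ω then (S x).conjTranspose else 1, fun i j => ?_, fun i j => ?_,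
    fun x => ?_, fun x hx => ?_, fun x hx k => ?_⟩
  · refine ((Complex.conjCLE : ℂ →L[ℝ] ℂ).contDiff.comp_contDiffOn (hs1 i j)).congr ?_
    intro x hx
    simp [hx, hS, Matrix.conjTranspose_apply]
  · intro x hx
    rcases hx with hx | hx
    · have h1 : ContinuousAt (fun y => conj (s i y j)) x :=
        Complex.continuous_conj.continuousAt.comp ((hpar i).1 x hx j).continuousAt
      have h2 : (fun y => (if y ∈ Ω then (S y).conjTranspose else 1 : Matrix (Fin N) (Fin N) ℂ) i j)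
          =ᶠ[𝓝 x] fun y => conj (s i y j) := by
        filter_upwards [ho.mem_nhds hx] with y hy
        simp [hy, hS, Matrix.conjTranspose_apply]
      exact (h1.congr_of_eventuallyEq h2).continuousWithinAt
    · have hxΩ := hΓΩ x hx
      unfold ContinuousWithinAt
      rw [nhdsWithin_union]
      simp only [hxΩ, if_false]
      refine Tendsto.sup ?_ ?_
      · have h1 : Tendsto (fun y => conj (s i y j)) (𝓝[Ω] x)
            (𝓝 (conj (if j = i then 1 else 0))) :=
          (Complex.continuous_conj.tendsto _).comp (hlim x hx i j)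
        have h2 : conj (if j = i then (1 : ℂ) else 0) = (1 : Matrix (Fin N) (Fin N) ℂ) i j := by
          by_cases hij : j = i
          · subst hij
            simp
          · simp [hij, Ne.symm hij]
        rw [h2] at h1
        refine h1.congr' ?_
        filter_upwards [self_mem_nhdsWithin] with y hy
        simp [hy, hS, Matrix.conjTranspose_apply]
      · refine tendsto_const_nhds.congr' ?_
        filter_upwards [self_mem_nhdsWithin] with y hy
        simp [hΓΩ y hy]
  · by_cases hx : x ∈ Ω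
    · simp only [hx, if_true]
      rw [Matrix.mem_unitaryGroup_iff]
      simpa [Matrix.star_eq_conjTranspose] using hon x hx
    · simp only [hx, if_false]
      exact one_mem _
  · simp [hΓΩ x hx]
  · have h1 : ∀ i j, pd k (fun y =>
        (if y ∈ Ω then (S y).conjTranspose else 1 : Matrix (Fin N) (Fin N) ℂ) i j) x =
        pd k (fun y => conj (S y j i)) x := by
      intro i j
      apply pd_congr_of_eventuallyEq
      filter_upwards [ho.mem_nhds hx] with y hy
      simp [hy, Matrix.conjTranspose_apply]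
    simp only [h1, hx, if_true]
    exact gauge_of_frame hA (S := S) (fun j => hpar j) hon hx k

end Vale.Agent.Lib.P088
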